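import Vale.Agent.P097.H91.T2c
import Vale.Agent.P097.H593.T3
import Vale.Agent.P097.H185.TLF
import Vale.Agent.P097.TC.Defs

/-!
# P097, row A4.5: the T-lemma (polynomial form), from (T2), (T3) and the assembly of helper185
-/

open Complex Metric Set Filter Topology MeasureTheory

namespace Vale.Agent.P097.H91

open H185.TL (TH cx ii TT Sq lg)

variable {κ : ℝ} {S : ℂ × ℂ → ℂ}

/-- A smooth bump on the line, equal to one on the unit interval. -/
theorem exists_bump : ∃ φ : ℝ → ℝ, Tst 3 φ ∧ (∀ x, 0 ≤ φ x) ∧ ∀ x ∈ Icc (0 : ℝ) 1, φ x = 1 := by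
  let f : ContDiffBump (1 / 2 : ℝ) := ⟨1, 2, one_pos, by norm_num⟩
  refine ⟨f, ⟨f.contDiff, ?_⟩, fun x => f.nonneg, ?_⟩
  · intro x hx
    apply f.zero_of_le_dist
    show (2 : ℝ) ≤ dist x (1 / 2)
    rw [Real.dist_eq]
    rcases le_or_gt 0 x with h | h
    · rw [abs_of_nonneg h] at hx
      rw [abs_of_nonneg (by linarith)]
      linarith
    · rw [abs_of_neg h] at hx
      rw [abs_of_neg (by linarith)]
      linarith
  · intro x hx
    apply f.one_of_mem_closedBall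
    show dist x (1 / 2) ≤ 1
    rw [Real.dist_eq, abs_le]
    constructor <;> linarith [hx.1, hx.2]

/-- the small cone -/
def C1 (κ : ℝ) : Set (ℝ × ℝ) := {Y | |Y.2| < κ * Y.1}

theorem C1_open (κ : ℝ) : IsOpen (C1 κ) :=
  isOpen_lt (continuous_abs.comp continuous_snd) (continuous_const.mul continuous_fst)

theorem C1_smul {Y : ℝ × ℝ} (hY : Y ∈ C1 κ) {r : ℝ} (hr : 0 < r) : r • Y ∈ C1 κ := by
  have hY' : |Y.2| < κ * Y.1 := hY
  show |r * Y.2| < κ * (r * Y.1)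
  rw [abs_mul, abs_of_pos hr]
  nlinarith [mul_lt_mul_of_pos_left hY' hr]

theorem norm_cx (a : ℝ × ℝ) : ‖cx a‖ = ‖a‖ := by
  simp [cx, Prod.norm_def]

theorem norm_ii (a : ℝ × ℝ) : ‖ii a‖ = ‖a‖ := by
  simp [ii, Prod.norm_def]

theorem norm_pt_le (a Y : ℝ × ℝ) {ρ : ℝ} (hρ : 0 ≤ ρ) :
    ‖cx a + (ρ : ℂ) • ii Y‖ ≤ ‖a‖ + ρ * ‖Y‖ := by
  refine (norm_add_le _ _).trans ?_
  rw [norm_cx, norm_smul, norm_ii, norm_real, Real.norm_eq_abs, abs_of_nonneg hρ]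

theorem im_pt (a Y : ℝ × ℝ) (ρ : ℝ) :
    ((cx a + (ρ : ℂ) • ii Y).1.im, (cx a + (ρ : ℂ) • ii Y).2.im) = ρ • Y := by
  ext <;> simp [cx, ii]

/-- **T-lemma**, polynomial form. -/
theorem T_lemma (H : Hyp κ S) {K2 : Set (ℝ × ℝ)} (o2 : IsOpen K2) (cv : Convex ℝ K2)
    (h0 : (0 : ℝ × ℝ) ∉ K2) (cone2 : ∀ Y ∈ K2, ∀ r : ℝ, 0 < r → r • Y ∈ K2) (sub : C1 κ ⊆ K2)
    (hS : DifferentiableOn ℂ S (TT K2)) {W : Set (ℂ × ℂ)} (hW : IsCompact W) (hWs : W ⊆ TT K2) :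
    ∃ ρ₀ > 0, ∀ ρ ∈ Ioo (0 : ℝ) ρ₀, ∃ x ∈ Sq, ∀ w ∈ W, S (cx x + (ρ : ℂ) • w) ≠ 0 := by
  obtain ⟨φ, hφ, hφ0, hφ1⟩ := exists_bump
  have hφc : Continuous φ := hφ.smooth.continuous
  set Φ : ℝ × ℝ → ℝ := fun x => φ x.1 * φ x.2 with hΦ
  have hΦc : Continuous Φ := by fun_prop
  have hΦs : HasCompactSupport Φ := by
    apply HasCompactSupport.of_support_subset_isCompact
      (K := Icc (-3 : ℝ) 3 ×ˢ Icc (-3 : ℝ) 3) (isCompact_Icc.prod isCompact_Icc)
    intro x hx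
    rw [Function.mem_support, hΦ] at hx
    have h1 := left_ne_zero_of_mul hx
    have h2 := right_ne_zero_of_mul hx
    have h3 : ∀ t : ℝ, φ t ≠ 0 → t ∈ Icc (-3 : ℝ) 3 := by
      intro t ht
      by_contra hn
      apply ht
      apply hφ.supp
      by_contra hlt
      push Not at hlt
      have := abs_lt.1 hlt
      exact hn ⟨this.1.le, this.2.le⟩
    exact ⟨h3 _ h1, h3 _ h2⟩
  obtain ⟨B, L, hB0, hL, -⟩ := H.lim (by norm_num : (0 : ℝ) < 3) hφ hφc hφ.supp 1 one_pos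
  have cone1 : ∀ Y ∈ C1 κ, ∀ r : ℝ, 0 < r → r • Y ∈ C1 κ := fun Y hY r hr => C1_smul hY hr
  have ne1 : (C1 κ).Nonempty := ⟨(1, 0), by simp [C1, H.pos]⟩
  have hJJ : ∀ z, H593.JJ S Φ z = J φ φ S z := by
    intro z
    unfold H593.JJ J tr
    apply integral_congr_ae
    refine Eventually.of_forall fun x => ?_
    simp only [hΦ]
    rw [add_comm z.1, add_comm z.2]
  have hK2a : ∀ y ∈ K2, ∀ y' ∈ K2, y + y' ∈ K2 := by
    intro y hy y' hy'
    have h1 := cv hy hy' (a := 1 / 2) (b := 1 / 2) (by norm_num) (by norm_num) (by norm_num)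
    have h2 := cone2 _ h1 2 (by norm_num)
    rw [smul_add, smul_smul, smul_smul] at h2
    norm_num at h2
    exact h2
  have hT3 : ∀ Q : Set (ℝ × ℝ), IsCompact Q → Q ⊆ K2 → ∀ ε > 0, ∃ δ > 0, ∀ z : ℂ × ℂ, ‖z‖ < δ →
      (∃ r : ℝ, 0 < r ∧ ∃ y ∈ Q, H593.im2 z = r • y) →
      ∃ c0 > 0, ∀ c, 0 < c → c ≤ c0 → H593.JN S Φ c z ≤ L + ε := by
    intro Q hQ hQK ε hε
    refine H593.T3 (K1 := C1 κ) (K2 := K2) (C1_open κ) cone1 ne1 o2 cone2 hK2a sub hS ?_ hΦc hΦs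
      (fun u => mul_nonneg (hφ0 _) (hφ0 _)) ?_ hQ hQK (fun h => h0 (hQK h)) hε
    · intro z hz
      exact H.ne z hz
    · intro Q hQ hQK ε hε
      refine ⟨min 1 (ε / (B + 1)), by positivity, ?_⟩
      rintro z hz ⟨r, hr, y, hy, hzy⟩
      have hzT : z ∈ T1 κ := by
        have h1 : H593.im2 z ∈ C1 κ := by
          rw [hzy]
          exact cone1 y (hQK hy) r hr
        exact h1
      rw [hJJ]
      have h2 := hL z hzT (hz.le.trans (min_le_left _ _))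
      have h3 : B * ‖z‖ ≤ ε := by
        have h4 : ‖z‖ ≤ ε / (B + 1) := hz.le.trans (min_le_right _ _)
        calc B * ‖z‖ ≤ B * (ε / (B + 1)) := by gcongr
          _ ≤ ε := by
            rw [mul_div_assoc', div_le_iff₀ (by positivity)]
            nlinarith
      linarith [(abs_le.1 h2).2]
  have hTH : TH S (C1 κ) K2 Φ L := by
    refine ⟨C1_open κ, o2, cv, sub, ne1, cone1, cone2, hS, ?_, hΦc, hΦs,
      fun u => mul_nonneg (hφ0 _) (hφ0 _), ?_, ?_, ?_⟩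
    · intro z hz
      exact H.ne z hz
    · intro x hx
      simp only [hΦ]
      rw [hφ1 _ hx.1, hφ1 _ hx.2, mul_one]
    · intro C hCK hC ε hε
      obtain ⟨δ, hδ, h⟩ := hT3 C hC hCK ε hε
      obtain ⟨M, hM⟩ := hC.isBounded.exists_norm_le
      refine ⟨δ / (2 * (|M| + 1)), by positivity, ?_⟩
      intro ρ hρ a ha Y hY
      have hMY : ‖Y‖ ≤ |M| := (hM Y hY).trans (le_abs_self M)
      have hn : ‖cx a + (ρ : ℂ) • ii Y‖ < δ := by
        refine (norm_pt_le a Y hρ.1.le).trans_lt ?_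
        have h1 := hρ.2
        rw [lt_div_iff₀ (by positivity)] at h1 ha
        nlinarith [mul_le_mul_of_nonneg_left hMY hρ.1.le, norm_nonneg a, abs_nonneg M,
          mul_nonneg (norm_nonneg a) (abs_nonneg M), hρ.1]
      obtain ⟨c0, hc0, hc⟩ := h _ hn ⟨ρ, hρ.1, Y, hY, im_pt a Y ρ⟩
      refine ⟨c0, hc0, ?_⟩
      refine le_trans (le_of_eq ?_) (hc c0 hc0 le_rfl)
      unfold H593.JN
      apply integral_congr_ae
      refine Eventually.of_forall fun x => ?_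
      simp only
      rw [mul_comm]
      congr 4
      ext
      · simp only [Prod.fst_add, cx]
        ring
      · simp only [Prod.snd_add, cx]
        ring
    · intro C hCK hC ε hε
      obtain ⟨M, hM⟩ := hC.isBounded.exists_norm_le
      refine ⟨min 1 (ε / (B + 1)) / (2 * (|M| + 1)), by positivity, ?_⟩
      intro ρ hρ a ha Y hY
      have hMY : ‖Y‖ ≤ |M| := (hM Y hY).trans (le_abs_self M)
      set δ := min 1 (ε / (B + 1)) with hδ
      have hδ0 : 0 < δ := by positivity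
      have hn : ‖cx a + (ρ : ℂ) • ii Y‖ < δ := by
        refine (norm_pt_le a Y hρ.1.le).trans_lt ?_
        have h1 := hρ.2
        rw [lt_div_iff₀ (by positivity)] at h1 ha
        nlinarith [mul_le_mul_of_nonneg_left hMY hρ.1.le, norm_nonneg a, abs_nonneg M,
          mul_nonneg (norm_nonneg a) (abs_nonneg M), hρ.1]
      have hzT : cx a + (ρ : ℂ) • ii Y ∈ T1 κ := by
        have h1 : ((cx a + (ρ : ℂ) • ii Y).1.im, (cx a + (ρ : ℂ) • ii Y).2.im) ∈ C1 κ := by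
          rw [im_pt]
          exact cone1 Y (hCK hY) ρ hρ.1
        exact h1
      have h2 := hL _ hzT (hn.le.trans (min_le_left _ _))
      have h3 : B * ‖cx a + (ρ : ℂ) • ii Y‖ ≤ ε := by
        have h4 : ‖cx a + (ρ : ℂ) • ii Y‖ ≤ ε / (B + 1) := hn.le.trans (min_le_right _ _)
        calc B * ‖cx a + (ρ : ℂ) • ii Y‖ ≤ B * (ε / (B + 1)) := by gcongr
          _ ≤ ε := by
            rw [mul_div_assoc', div_le_iff₀ (by positivity)]
            nlinarith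
      have h5 : J φ φ S (cx a + (ρ : ℂ) • ii Y)
          = ∫ x, Φ x * Real.log ‖S (cx x + (cx a + (ρ : ℂ) • ii Y))‖ := by
        unfold J
        apply integral_congr_ae
        refine Eventually.of_forall fun x => ?_
        simp only [hΦ]
        rw [mul_comm]
        rfl
      rw [← h5]
      linarith [(abs_le.1 h2).1]
  exact hTH.main hW hWs

/-- The T-lemma over the cones of `TC.Defs`, with the polynomial bound in the height. -/
theorem Tlem_poly {k : ℝ} {S : ℂ × ℂ → ℂ} (k0 : 0 < k) (k1 : k < 1)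
    (hS : DifferentiableOn ℂ S (TC.Tc (TC.K2 k))) (ne : ∀ z ∈ TC.Tc (TC.K1 k), S z ≠ 0)
    (bd : ∀ R : ℝ, ∃ C : ℝ, ∃ m : ℕ, ∀ z ∈ TC.Tc (TC.K1 k), ‖z‖ ≤ R →
      |Real.log ‖S z‖| ≤ C / (k * z.1.im - |z.2.im|) ^ m)
    {W : Set (ℂ × ℂ)} (hW : IsCompact W) (hWs : W ⊆ TC.Tc (TC.K2 k)) :
    ∃ s₀ > 0, ∀ s ∈ Ioo (0 : ℝ) s₀, ∃ x' ∈ closedBall (0 : ℝ × ℝ) 1,
      ∀ z ∈ W, S (TC.bl x' s z) ≠ 0 := by
  have sub : TC.K1 k ⊆ TC.K2 k := by
    rintro ⟨a, c⟩ h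
    simp only [TC.K1, TC.K2, mem_ofPred_eq] at h ⊢
    obtain ⟨h1, h2⟩ := abs_lt.1 h
    have ha : 0 < a := by nlinarith [abs_nonneg c]
    constructor
    · nlinarith
    · nlinarith
  have H : Hyp k S := ⟨k0, hS.mono fun z hz => sub hz, fun z hz => ne z hz, fun R => bd R⟩
  obtain ⟨ρ₀, hρ₀, h⟩ := T_lemma H (TC.isOpen_K2 k) (TC.convex_K2 k) (by simp [TC.K2])
    (by
      rintro ⟨a, c⟩ hY r hr
      simp only [TC.K2, mem_ofPred_eq, Prod.smul_mk, smul_eq_mul] at hY ⊢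
      constructor
      · nlinarith [mul_pos hr hY.1]
      · nlinarith [mul_pos hr hY.2]) sub hS hW hWs
  refine ⟨ρ₀, hρ₀, fun s hs => ?_⟩
  obtain ⟨x, hx, hxs⟩ := h s hs
  refine ⟨x, ?_, fun z hz => ?_⟩
  · rw [mem_closedBall_zero_iff, Prod.norm_def]
    obtain ⟨h1, h2⟩ := hx
    apply max_le
    · rw [Real.norm_eq_abs, abs_le]
      constructor <;> linarith [h1.1, h1.2]
    · rw [Real.norm_eq_abs, abs_le]
      constructor <;> linarith [h2.1, h2.2]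
  · exact hxs z hz

end Vale.Agent.P097.H91
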