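import Vale.Agent.P097.H226.GDefs

/-!
# P097, row LIN of helper226: real linear change of coordinates
-/

open Complex Metric Filter Topology Set MeasureTheory
open Vale.Agent.P097.TC Vale.Agent.P097.H226

namespace Vale.Agent.P097.H91.Lin

/-- the linear change on `ℂ × ℂ` -/
noncomputable def LC (s : ℝ) (z : ℂ × ℂ) : ℂ × ℂ := (z.1 - s * z.2, z.2 - s * z.1)
/-- its inverse -/
noncomputable def MC (s : ℝ) (z : ℂ × ℂ) : ℂ × ℂ :=
  ((z.1 + s * z.2) / (1 - s ^ 2), (z.2 + s * z.1) / (1 - s ^ 2))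
/-- the linear change on `ℝ × ℝ` -/
noncomputable def LR (s : ℝ) (y : ℝ × ℝ) : ℝ × ℝ := (y.1 - s * y.2, y.2 - s * y.1)
/-- its inverse, as a linear map -/
noncomputable def MR (s : ℝ) : (ℝ × ℝ) →ₗ[ℝ] (ℝ × ℝ) where
  toFun y := ((y.1 + s * y.2) / (1 - s ^ 2), (y.2 + s * y.1) / (1 - s ^ 2))
  map_add' x y := by
    ext
    · simp only [Prod.fst_add, Prod.snd_add]
      ring
    · simp only [Prod.fst_add, Prod.snd_add]
      ring
  map_smul' c x := by
    ext
    · simp only [Prod.smul_fst, Prod.smul_snd, smul_eq_mul, RingHom.id_apply]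
      ring
    · simp only [Prod.smul_fst, Prod.smul_snd, smul_eq_mul, RingHom.id_apply]
      ring

variable {s : ℝ}

theorem one_sub_ne (h0 : 0 < s) (h1 : s < 1) : (1 - s ^ 2 : ℝ) ≠ 0 := by nlinarith

theorem one_sub_neC (h0 : 0 < s) (h1 : s < 1) : (1 - (s : ℂ) ^ 2) ≠ 0 := by
  have := one_sub_ne h0 h1
  intro h
  apply this
  exact_mod_cast h

theorem LC_MC (h0 : 0 < s) (h1 : s < 1) (z : ℂ × ℂ) : LC s (MC s z) = z := by
  have := one_sub_neC h0 h1
  unfold LC MC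
  ext
  · simp only
    field_simp
    ring
  · simp only
    field_simp
    ring

theorem MC_LC (h0 : 0 < s) (h1 : s < 1) (z : ℂ × ℂ) : MC s (LC s z) = z := by
  have := one_sub_neC h0 h1
  unfold LC MC
  ext
  · simp only
    field_simp
    ring
  · simp only
    field_simp
    ring

theorem LR_MR (h0 : 0 < s) (h1 : s < 1) (y : ℝ × ℝ) : LR s (MR s y) = y := by
  have := one_sub_ne h0 h1
  show LR s ((y.1 + s * y.2) / (1 - s ^ 2), (y.2 + s * y.1) / (1 - s ^ 2)) = y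
  unfold LR
  ext
  · simp only
    field_simp
    ring
  · simp only
    field_simp
    ring

theorem MR_LR (h0 : 0 < s) (h1 : s < 1) (y : ℝ × ℝ) : MR s (LR s y) = y := by
  have := one_sub_ne h0 h1
  show (((LR s y).1 + s * (LR s y).2) / (1 - s ^ 2), ((LR s y).2 + s * (LR s y).1) / (1 - s ^ 2)) = y
  unfold LR
  ext
  · simp only
    field_simp
    ring
  · simp only
    field_simp
    ring

theorem ft_LC (z : ℂ × ℂ) : ft (LC s z) = LR s (ft z) := by
  simp [ft, LC, LR]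

theorem ht_LC (z : ℂ × ℂ) : ht (LC s z) = LR s (ht z) := by
  simp [ht, LC, LR]

theorem ht_MC (h0 : 0 < s) (h1 : s < 1) (z : ℂ × ℂ) : ht (MC s z) = MR s (ht z) := by
  have h := ht_LC (s := s) (MC s z)
  rw [LC_MC h0 h1] at h
  rw [h, MR_LR h0 h1]

theorem LC_bl (e : ℝ × ℝ) (r : ℝ) (z : ℂ × ℂ) : LC s (bl e r z) = bl (LR s e) r (LC s z) := by
  unfold LC bl LR
  ext
  · simp only
    push_cast
    ring
  · simp only
    push_cast
    ring

theorem LC_cont : Continuous (LC s) := by unfold LC; fun_prop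
theorem MC_cont : Continuous (MC s) := by unfold MC; fun_prop
theorem LC_diff : Differentiable ℂ (LC s) := by unfold LC; fun_prop

theorem norm_LR (h0 : 0 < s) (h1 : s < 1) (y : ℝ × ℝ) : ‖LR s y‖ ≤ 2 * ‖y‖ := by
  have e1 := norm_fst_le y
  have e2 := norm_snd_le y
  have e3 : ‖s * y.2‖ ≤ ‖y‖ := by
    rw [norm_mul, Real.norm_of_nonneg h0.le]
    nlinarith [norm_nonneg y.2]
  have e4 : ‖s * y.1‖ ≤ ‖y‖ := by
    rw [norm_mul, Real.norm_of_nonneg h0.le]
    nlinarith [norm_nonneg y.1]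
  rw [Prod.norm_def]
  apply max_le
  · exact (norm_sub_le _ _).trans (by linarith)
  · exact (norm_sub_le _ _).trans (by linarith)

theorem LR_sub (x y : ℝ × ℝ) : LR s (x - y) = LR s x - LR s y := by
  unfold LR
  ext
  · simp only [Prod.fst_sub, Prod.snd_sub]
    ring
  · simp only [Prod.fst_sub, Prod.snd_sub]
    ring

/-- the new aperture -/
noncomputable def k2 (k s : ℝ) : ℝ := (k - s) / (1 - k * s)

theorem k2_pos {k : ℝ} (h0 : 0 < s) (h : s < k) (h1 : k < 1) : 0 < k2 k s := by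
  unfold k2
  have : 0 < 1 - k * s := by nlinarith
  exact div_pos (by linarith) this

theorem k2_lt {k : ℝ} (h0 : 0 < s) (h : s < k) (h1 : k < 1) : k2 k s < k := by
  unfold k2
  have : 0 < 1 - k * s := by nlinarith
  rw [div_lt_iff₀ this]
  nlinarith [mul_pos h0 (by nlinarith : 0 < 1 - k ^ 2)]

theorem LR_K2 {k : ℝ} (h0 : 0 < s) (h : s < k) (h1 : k < 1) {y : ℝ × ℝ} (hy : y ∈ K2 (k2 k s)) :
    LR s y ∈ K2 k := by
  have hp : 0 < 1 - k * s := by nlinarith
  have hk : k2 k s * (1 - k * s) = k - s := by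
    unfold k2
    field_simp
  obtain ⟨a, c⟩ := y
  obtain ⟨h2, h3⟩ := hy
  simp only at h2 h3
  have e1 := mul_pos hp h2
  have e2 := mul_pos hp h3
  refine ⟨?_, ?_⟩
  · show 0 < (a - s * c) + k * (c - s * a)
    have : (a - s * c) + k * (c - s * a) = (1 - k * s) * a + (k - s) * c := by ring
    rw [this, ← hk]
    nlinarith
  · show 0 < (c - s * a) + k * (a - s * c)
    have : (c - s * a) + k * (a - s * c) = (1 - k * s) * c + (k - s) * a := by ring
    rw [this, ← hk]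
    nlinarith

theorem LR_K1 {k : ℝ} (h0 : 0 < s) (h : s < k) (h1 : k < 1) {y : ℝ × ℝ} (hy : y ∈ K1 (k2 k s)) :
    LR s y ∈ K1 k := by
  have hp : 0 < 1 - k * s := by nlinarith
  have hk : k2 k s * (1 - k * s) = k - s := by
    unfold k2
    field_simp
  have hk2 := k2_pos h0 h h1
  have hk2' := k2_lt h0 h h1
  obtain ⟨a, c⟩ := y
  have hy' : |c| < k2 k s * a := hy
  obtain ⟨h2, h3⟩ := abs_lt.1 hy'
  have ha : 0 < a := by
    by_contra hn
    push Not at hn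
    nlinarith [abs_nonneg c]
  show |c - s * a| < k * (a - s * c)
  rw [abs_lt]
  constructor
  · have e1 : (1 - k * s) * (-(k2 k s * a)) < (1 - k * s) * c := mul_lt_mul_of_pos_left h2 hp
    have e2 : (1 - k * s) * (-(k2 k s * a)) = -((k - s) * a) := by
      rw [← hk]
      ring
    nlinarith
  · have e3 : c < k * a := h3.trans (mul_lt_mul_of_pos_right hk2' ha)
    have e4 : (1 + k * s) * c < (1 + k * s) * (k * a) := mul_lt_mul_of_pos_left e3 (by nlinarith)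
    have e5 : (1 + k * s) * (k * a) ≤ (k + s) * a := by
      have : k * k ≤ 1 := by nlinarith
      nlinarith [mul_pos h0 ha]
    nlinarith

theorem MR_K2 {k' : ℝ} (hk' : 0 < k') (h : k' < s) (h1 : s < 1) {y : ℝ × ℝ} (hy : y ∈ K2 k') :
    MR s y ∈ Qd := by
  have hp : 0 < 1 - s ^ 2 := by nlinarith
  obtain ⟨a, c⟩ := y
  obtain ⟨h2, h3⟩ := hy
  simp only at h2 h3
  refine ⟨?_, ?_⟩
  · show 0 < (a + s * c) / (1 - s ^ 2)
    apply div_pos _ hp
    rcases le_or_gt 0 c with hc | hc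
    · nlinarith
    · have h4 : 0 < a := by
        by_contra hn
        push Not at hn
        nlinarith
      -- a > -c/k' and s k' < 1
      have h5 : s * k' < 1 := by nlinarith
      have h6 : 0 < s * (c + k' * a) := mul_pos (by linarith) h3
      nlinarith [mul_pos (by linarith : 0 < 1 - s * k') h4]
  · show 0 < (c + s * a) / (1 - s ^ 2)
    apply div_pos _ hp
    rcases le_or_gt 0 a with ha | ha
    · nlinarith
    · have h4 : 0 < c := by
        by_contra hn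
        push Not at hn
        nlinarith
      have h5 : s * k' < 1 := by nlinarith
      have h6 : 0 < s * (a + k' * c) := mul_pos (by linarith) h2
      nlinarith [mul_pos (by linarith : 0 < 1 - s * k') h4]

theorem det_MR (h0 : 0 < s) (h1 : s < 1) : LinearMap.det (MR s) ≠ 0 := by
  have hinj : Function.Injective (MR s) := by
    intro x y hxy
    rw [← LR_MR h0 h1 x, ← LR_MR h0 h1 y, hxy]
  have hu := (LinearMap.isUnit_iff_ker_eq_bot (MR s)).2 (LinearMap.ker_eq_bot.2 hinj)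
  have := (LinearMap.isUnit_iff_isUnit_det (MR s)).1 hu
  exact this.ne_zero

theorem LC_TB {e₀ ec : ℝ × ℝ} {ρ ρ' : ℝ} (h0 : 0 < s) (h1 : s < 1)
    (hρ : ‖ec - e₀‖ + 2 * ρ' ≤ ρ) {K K' : Set (ℝ × ℝ)}
    (hK : ∀ y ∈ K', LR s y ∈ K) {z : ℂ × ℂ} (hz : z ∈ TB (MR s ec) ρ' K') :
    LC s z ∈ TB e₀ ρ K := by
  obtain ⟨h2, h3, h4⟩ := hz
  refine ⟨?_, ?_, ?_⟩
  · rw [ft_LC, mem_ball, dist_eq_norm]
    rw [mem_ball, dist_eq_norm] at h2
    have e1 : LR s (ft z) - e₀ = LR s (ft z - MR s ec) + (ec - e₀) := by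
      rw [LR_sub, LR_MR h0 h1]
      abel
    rw [e1]
    have e2 := norm_LR h0 h1 (ft z - MR s ec)
    have e3 := norm_add_le (LR s (ft z - MR s ec)) (ec - e₀)
    linarith
  · rw [ht_LC]
    have e2 := norm_LR h0 h1 (ht z)
    have e3 := norm_nonneg (ec - e₀)
    linarith
  · rw [ht_LC]
    exact hK _ h4

/-- **row LIN** -/
theorem lin : LIN := by
  intro hQ Λ b F q e₀ ρ k al p th W k' hk' hk'k
  obtain ⟨s, hs1, hs2⟩ := exists_between hk'k
  have h0 : 0 < s := hk'.trans hs1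
  have h1 : s < 1 := hs2.trans W.k1
  -- the property
  set P : ℝ × ℝ → Prop := fun e => ∀ x ∈ Sb b, deriv F x ≠ 0 → NT th k e x →
    ∃ (r : ℕ → ℝ) (N : ℕ → ℤ), Bdd F (K2 k') k al p e x r N with hP
  have hloc : ∀ ec ∈ ball e₀ ρ, ∃ V ∈ 𝓝 ec, volume (V ∩ {e | ¬ P e}) = 0 := by
    intro ec hec
    rw [mem_ball, dist_eq_norm] at hec
    set ρ' : ℝ := (ρ - ‖ec - e₀‖) / 2 with hρ'
    have hρ'0 : 0 < ρ' := by rw [hρ']; linarith
    have hρ'1 : ‖ec - e₀‖ + 2 * ρ' ≤ ρ := by rw [hρ']; linarith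
    have hmap2 : ∀ z ∈ TB (MR s ec) ρ' (K2 (k2 k s)), LC s z ∈ TB e₀ ρ (K2 k) := fun z hz =>
      LC_TB h0 h1 hρ'1 (fun y hy => LR_K2 h0 hs2 W.k1 hy) hz
    have hmap1 : ∀ z ∈ TB (MR s ec) ρ' (K1 (k2 k s)), LC s z ∈ TB e₀ ρ (K1 k) := fun z hz =>
      LC_TB h0 h1 hρ'1 (fun y hy => LR_K1 h0 hs2 W.k1 hy) hz
    have W' : LW Λ b F q (MR s ec) ρ' (k2 k s) (fun z => al (LC s z)) (fun z => p (LC s z))
        (fun z => th (LC s z)) := by
      refine ⟨W.cv, hρ'0, k2_pos h0 hs2 W.k1, (k2_lt h0 hs2 W.k1).trans W.k1, ?_, ?_, ?_, ?_, ?_, ?_⟩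
      · exact W.dal.comp LC_diff.differentiableOn hmap2
      · exact W.dp.comp LC_diff.differentiableOn hmap2
      · exact W.dth.comp LC_diff.differentiableOn hmap1
      · exact fun z hz => W.mem _ (hmap1 z hz)
      · exact fun z hz => W.inc _ (hmap1 z hz)
      · exact fun z hz => W.smp _ (hmap1 z hz)
    have hae := hQ W'
    -- pull back by the linear map
    have hae2 : ∀ᵐ e : ℝ × ℝ, (MR s e ∈ ball (MR s ec) ρ' → ∀ x ∈ Sb b, deriv F x ≠ 0 →
        NT (fun z => th (LC s z)) (k2 k s) (MR s e) x → ∃ (r : ℕ → ℝ) (N : ℕ → ℤ),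
        Bdd F Qd (k2 k s) (fun z => al (LC s z)) (fun z => p (LC s z)) (MR s e) x r N) := by
      rw [ae_iff] at hae ⊢
      have := Measure.addHaar_preimage_linearMap (volume : Measure (ℝ × ℝ)) (det_MR h0 h1)
        {e | ¬ (e ∈ ball (MR s ec) ρ' → ∀ x ∈ Sb b, deriv F x ≠ 0 →
        NT (fun z => th (LC s z)) (k2 k s) e x → ∃ (r : ℕ → ℝ) (N : ℕ → ℤ),
        Bdd F Qd (k2 k s) (fun z => al (LC s z)) (fun z => p (LC s z)) e x r N)}
      rw [hae, mul_zero] at this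
      exact this
    have hcont : Continuous (MR s) := LinearMap.continuous_of_finiteDimensional _
    refine ⟨MR s ⁻¹' ball (MR s ec) ρ', hcont.continuousAt.preimage_mem_nhds
      (ball_mem_nhds _ hρ'0), ?_⟩
    rw [ae_iff] at hae2
    refine measure_mono_null ?_ hae2
    rintro e ⟨he1, he2⟩ hcon
    apply he2
    intro x hx hFx hNT
    have hLe : LR s (MR s e) = e := LR_MR h0 h1 e
    have hNT' : NT (fun z => th (LC s z)) (k2 k s) (MR s e) x := by
      intro z₁ hz₁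
      have hz₁' : LC s z₁ ∈ Tc (K1 k) := by
        show ht (LC s z₁) ∈ K1 k
        rw [ht_LC]
        exact LR_K1 h0 hs2 W.k1 hz₁
      have h2 := hNT (LC s z₁) hz₁'
      have h3 : Tendsto (fun a : ℝ × (ℂ × ℂ) => (a.1, LC s a.2)) (𝓝[>] 0 ×ˢ 𝓝 z₁)
          (𝓝[>] 0 ×ˢ 𝓝 (LC s z₁)) :=
        tendsto_fst.prodMk (LC_cont.continuousAt.tendsto.comp tendsto_snd)
      have h4 := h2.comp h3
      refine h4.congr fun a => ?_
      show th (bl e a.1 (LC s a.2)) = th (LC s (bl (MR s e) a.1 a.2))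
      rw [LC_bl, hLe]
    obtain ⟨r, N, B⟩ := hcon he1 x hx hFx hNT'
    refine ⟨r, N, B.r0, B.rt, ?_, ?_, ?_⟩
    · intro W₁ hW₁ hW₁s
      obtain ⟨M, hM⟩ := B.bal (MC s '' W₁) (hW₁.image MC_cont) (by
        rintro _ ⟨z, hz, rfl⟩
        show ht (MC s z) ∈ Qd
        rw [ht_MC h0 h1]
        exact MR_K2 hk' hs1 h1 (hW₁s hz))
      refine ⟨M, hM.mono fun n hn z hz => ?_⟩
      have h2 := hn (MC s z) ⟨z, hz, rfl⟩
      rwa [LC_bl, hLe, LC_MC h0 h1] at h2
    · intro W₁ hW₁ hW₁s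
      obtain ⟨M, hM⟩ := B.bp (MC s '' W₁) (hW₁.image MC_cont) (by
        rintro _ ⟨z, hz, rfl⟩
        show ht (MC s z) ∈ Qd
        rw [ht_MC h0 h1]
        exact MR_K2 hk' hs1 h1 (hW₁s hz))
      refine ⟨M, hM.mono fun n hn z hz => ?_⟩
      have h2 := hn (MC s z) ⟨z, hz, rfl⟩
      rwa [LC_bl, hLe, LC_MC h0 h1] at h2
    · obtain ⟨W₁, hW₁, hW₁s, c, hc, hz⟩ := B.nd
      refine ⟨LC s '' W₁, hW₁.image LC_cont, ?_, c, hc, fun n => ?_⟩
      · rintro _ ⟨z, hz, rfl⟩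
        show ht (LC s z) ∈ K1 k
        rw [ht_LC]
        exact LR_K1 h0 hs2 W.k1 (hW₁s hz)
      · obtain ⟨z, hz1, hz2⟩ := hz n
        refine ⟨LC s z, ⟨z, hz1, rfl⟩, ?_⟩
        rwa [LC_bl, hLe] at hz2
  -- globalise
  rw [ae_iff]
  have hset : {e | ¬ (e ∈ ball e₀ ρ → P e)} = ball e₀ ρ ∩ {e | ¬ P e} := by
    ext e
    simp only [mem_ofPred_eq, mem_inter_iff, Classical.not_imp]
  show volume {e | ¬ (e ∈ ball e₀ ρ → P e)} = 0
  rw [hset]
  apply measure_null_of_locally_null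
  intro e he
  obtain ⟨V, hV, hV0⟩ := hloc e he.1
  refine ⟨V ∩ {e | ¬ P e}, ?_, hV0⟩
  rw [mem_nhdsWithin_iff_exists_mem_nhds_inter]
  exact ⟨V, hV, fun y hy => ⟨hy.1, hy.2.2⟩⟩

end Vale.Agent.P097.H91.Lin
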