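import Mathlib

/-!
# P097, row A4.5-T2, part a: one-variable lemmas

`grad1`: gradient estimate for zero free functions.
`bdry`: boundary values against smooth functions of a holomorphic function of polynomial growth.
-/

open Complex Metric Set Filter Topology MeasureTheory

namespace Vale.Agent.P097.H91

theorem exists_log {f : ℂ → ℂ} {c : ℂ} {r : ℝ} (hr : 0 < r)
    (hf : DifferentiableOn ℂ f (ball c r)) (h0 : ∀ z ∈ ball c r, f z ≠ 0) :
    ∃ g : ℂ → ℂ, g c = 0 ∧ (∀ z ∈ ball c r, HasDerivAt g (deriv f z / f z) z) ∧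
      ∀ z ∈ ball c r, f z = f c * exp (g z) := by
  have hf' : DifferentiableOn ℂ (deriv f) (ball c r) := hf.deriv isOpen_ball
  have hq : DifferentiableOn ℂ (fun z => deriv f z / f z) (ball c r) := hf'.div hf h0
  obtain ⟨g, hgc, hg⟩ := hq.isExactOn_ball.with_val_at c 0
  refine ⟨g, hgc, hg, ?_⟩
  have hder : ∀ z ∈ ball c r, HasDerivAt (fun z => f z * exp (-(g z))) 0 z := by
    intro z hz
    have h1 : HasDerivAt f (deriv f z) z :=
      (hf.differentiableAt (isOpen_ball.mem_nhds hz)).hasDerivAt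
    have h2 : HasDerivAt (fun z => exp (-(g z))) (exp (-(g z)) * (-(deriv f z / f z))) z :=
      (hg z hz).neg.cexp
    have h3 := h1.mul h2
    have := h0 z hz
    have h4 : deriv f z * exp (-(g z)) + f z * (exp (-(g z)) * (-(deriv f z / f z))) = 0 := by
      rw [show f z * (exp (-(g z)) * (-(deriv f z / f z))) = -(exp (-(g z)) * deriv f z) by
        field_simp]
      ring
    rw [h4] at h3
    exact h3
  have hconst : ∀ z ∈ ball c r, f z * exp (-(g z)) = f c * exp (-(g c)) := by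
    intro z hz
    exact (convex_ball c r).is_const_of_fderivWithin_eq_zero (𝕜 := ℂ)
      (fun y hy => (hder y hy).differentiableAt.differentiableWithinAt)
      (fun y hy => by
        rw [fderivWithin_of_isOpen isOpen_ball hy]
        ext
        simp [(hder y hy).hasFDerivAt.fderiv])
      hz (mem_ball_self hr)
  intro z hz
  have h := hconst z hz
  rw [hgc, neg_zero, exp_zero, mul_one] at h
  rw [← h, mul_assoc, ← exp_add, neg_add_cancel, exp_zero, mul_one]

/-- Gradient estimate for zero free holomorphic functions. -/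
theorem grad1 {f : ℂ → ℂ} {r B : ℝ} (hr : 0 < r) (hf : DifferentiableOn ℂ f (ball 0 r))
    (h0 : ∀ z ∈ ball (0 : ℂ) r, f z ≠ 0)
    (hB : ∀ z ∈ ball (0 : ℂ) r, |Real.log ‖f z‖| ≤ B) :
    ‖deriv f 0 / f 0‖ ≤ 8 * (B + 1) / r := by
  obtain ⟨g, hg0, hg, hfg⟩ := exists_log hr hf h0
  have h00 : (0 : ℂ) ∈ ball (0 : ℂ) r := mem_ball_self hr
  have hB0 : 0 ≤ B := (abs_nonneg _).trans (hB 0 h00)
  have hgd : DifferentiableOn ℂ g (ball 0 r) :=
    fun z hz => (hg z hz).differentiableAt.differentiableWithinAt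
  have hre : ∀ z ∈ ball (0 : ℂ) r, (g z).re ≤ 2 * (B + 1) := by
    intro z hz
    have h1 : ‖f z‖ = ‖f 0‖ * Real.exp (g z).re := by
      rw [hfg z hz, norm_mul, norm_exp]
    have h2 : Real.log ‖f z‖ = Real.log ‖f 0‖ + (g z).re := by
      rw [h1, Real.log_mul (norm_ne_zero_iff.2 (h0 0 h00)) (Real.exp_ne_zero _), Real.log_exp]
    have h3 := abs_le.1 (hB z hz)
    have h4 := abs_le.1 (hB 0 h00)
    linarith [h3.2, h4.1]
  have hbc : ∀ z ∈ sphere (0 : ℂ) (r / 2), ‖g z‖ ≤ 4 * (B + 1) := by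
    intro z hz
    have hz' : ‖z‖ = r / 2 := by simpa using hz
    have hzb : z ∈ ball (0 : ℂ) r := by
      rw [mem_ball_zero_iff, hz']
      linarith
    have h1 := borelCaratheodory_zero (M := 2 * (B + 1)) (by linarith) hgd
      (fun w hw => hre w hw) hr hzb hg0
    rw [hz'] at h1
    refine h1.trans (le_of_eq ?_)
    have : r - r / 2 = r / 2 := by ring
    rw [this]
    field_simp
    ring
  have hd : DiffContOnCl ℂ g (ball 0 (r / 2)) := by
    apply DifferentiableOn.diffContOnCl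
    apply hgd.mono
    rw [closure_ball _ (by linarith : r / 2 ≠ 0)]
    exact closedBall_subset_ball (by linarith)
  have h1 := norm_deriv_le_of_forall_mem_sphere_norm_le (by linarith : 0 < r / 2) hd hbc
  rw [(hg 0 h00).deriv] at h1
  refine h1.trans (le_of_eq ?_)
  field_simp
  ring

/-- Test functions on the line. -/
structure Tst (R : ℝ) (φ : ℝ → ℝ) : Prop where
  smooth : ContDiff ℝ (⊤ : ℕ∞) φ
  supp : ∀ x, R ≤ |x| → φ x = 0

theorem Tst.deriv {R : ℝ} {φ : ℝ → ℝ} (h : Tst R φ) (hR : 0 < R) : Tst R (deriv φ) := by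
  refine ⟨?_, ?_⟩
  · have := (contDiff_infty_iff_deriv.1 h.smooth).2
    exact this
  · intro x hx
    have hcont : Continuous (_root_.deriv φ) := (contDiff_infty_iff_deriv.1 h.smooth).2.continuous
    have hopen : ∀ y, R < |y| → _root_.deriv φ y = 0 := by
      intro y hy
      have hev : φ =ᶠ[𝓝 y] fun _ => (0 : ℝ) := by
        have : {y : ℝ | R < |y|} ∈ 𝓝 y := (isOpen_lt continuous_const continuous_abs).mem_nhds hy
        filter_upwards [this] with t ht
        exact h.supp t (le_of_lt ht)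
      rw [hev.deriv_eq]
      simp
    have hcl : x ∈ closure {y : ℝ | R < |y|} := by
      rcases le_or_gt 0 x with h0 | h0
      · rw [abs_of_nonneg h0] at hx
        rw [Metric.mem_closure_iff]
        intro ε hε
        refine ⟨x + ε / 2, ?_, ?_⟩
        · simp only [mem_ofPred_eq]
          rw [abs_of_nonneg (by linarith)]
          linarith
        · rw [Real.dist_eq]
          rw [show x - (x + ε / 2) = -(ε / 2) by ring, abs_neg, abs_of_pos (by linarith)]
          linarith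
      · rw [abs_of_neg h0] at hx
        rw [Metric.mem_closure_iff]
        intro ε hε
        refine ⟨x - ε / 2, ?_, ?_⟩
        · simp only [mem_ofPred_eq]
          rw [abs_of_neg (by linarith)]
          linarith
        · rw [Real.dist_eq]
          rw [show x - (x - ε / 2) = ε / 2 by ring, abs_of_pos (by linarith)]
          linarith
    have hclosed : IsClosed {y : ℝ | _root_.deriv φ y = 0} := isClosed_eq hcont continuous_const
    exact (closure_minimal (fun y hy => hopen y hy) hclosed) hcl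

/-- The pairing of `h(· + iτ)` with `φ`. -/
noncomputable def G (R : ℝ) (h : ℂ → ℂ) (φ : ℝ → ℝ) (τ : ℝ) : ℂ :=
  ∫ x in (-R)..R, h ((x : ℂ) + τ * I) * (φ x : ℂ)

theorem G_hasDerivAt {R : ℝ} (hR : 0 < R) {h : ℂ → ℂ} (hh : DifferentiableOn ℂ h {w | 0 < w.im})
    {φ : ℝ → ℝ} (hφ : Tst R φ) {τ : ℝ} (hτ : 0 < τ) :
    HasDerivAt (G R h φ) (-I * G R h (deriv φ) τ) τ := by
  have hU : IsOpen {w : ℂ | 0 < w.im} := isOpen_lt continuous_const continuous_im
  have hφc : Continuous φ := hφ.smooth.continuous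
  have hφ'c : Continuous (deriv φ) := (hφ.deriv hR).smooth.continuous
  have hφd : ∀ x, HasDerivAt φ (deriv φ x) x := fun x =>
    (hφ.smooth.differentiable (by simp) x).hasDerivAt
  have hhd : ∀ w : ℂ, 0 < w.im → HasDerivAt h (deriv h w) w := fun w hw =>
    (hh.differentiableAt (hU.mem_nhds hw)).hasDerivAt
  have hhc : ContinuousOn h {w : ℂ | 0 < w.im} := hh.continuousOn
  have hh'c : ContinuousOn (deriv h) {w : ℂ | 0 < w.im} := (hh.deriv hU).continuousOn
  have him : ∀ (x σ : ℝ), ((x : ℂ) + σ * I).im = σ := by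
    intro x σ
    simp
  -- continuity in x
  have hcx : ∀ σ : ℝ, 0 < σ → Continuous fun x : ℝ => h ((x : ℂ) + σ * I) := by
    intro σ hσ
    apply hhc.comp_continuous (by fun_prop)
    intro x
    simpa [him] using hσ
  have hc'x : ∀ σ : ℝ, 0 < σ → Continuous fun x : ℝ => deriv h ((x : ℂ) + σ * I) := by
    intro σ hσ
    apply hh'c.comp_continuous (by fun_prop)
    intro x
    simpa [him] using hσ
  -- compact bound
  have hK : IsCompact ((fun p : ℝ × ℝ => ((p.1 : ℂ) + p.2 * I)) '' (Icc (-R) R ×ˢ Icc (τ / 2) (2 * τ))) :=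
    (isCompact_Icc.prod isCompact_Icc).image (by fun_prop)
  obtain ⟨M, hM⟩ := hK.exists_bound_of_continuousOn (f := deriv h) (hh'c.mono (by
    rintro _ ⟨p, hp, rfl⟩
    simp only [mem_ofPred_eq, him]
    have := hp.2.1
    linarith))
  have hs : Ioo (τ / 2) (2 * τ) ∈ 𝓝 τ := Ioo_mem_nhds (by linarith) (by linarith)
  have key := intervalIntegral.hasDerivAt_integral_of_dominated_loc_of_deriv_le
    (μ := volume) (a := -R) (b := R) (x₀ := τ) (𝕜 := ℝ)
    (F := fun σ x => h ((x : ℂ) + σ * I) * (φ x : ℂ))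
    (F' := fun σ x => (deriv h ((x : ℂ) + σ * I) * I) * (φ x : ℂ))
    (bound := fun x => M * |φ x|) hs
    (by
      filter_upwards [hs] with σ hσ
      exact ((hcx σ (by linarith [hσ.1])).mul (by fun_prop)).aestronglyMeasurable)
    (((hcx τ hτ).mul (by fun_prop)).intervalIntegrable _ _)
    ((((hc'x τ hτ).mul continuous_const).mul (by fun_prop)).aestronglyMeasurable)
    (by
      refine Eventually.of_forall fun x hx σ hσ => ?_
      rw [norm_mul, norm_mul, norm_I, mul_one, norm_real, Real.norm_eq_abs]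
      gcongr
      apply hM
      refine ⟨(x, σ), ⟨?_, ⟨hσ.1.le, hσ.2.le⟩⟩, rfl⟩
      rw [uIoc_of_le (by linarith)] at hx
      exact ⟨hx.1.le, hx.2⟩)
    ((by fun_prop : Continuous fun x => M * |φ x|).intervalIntegrable _ _)
    (by
      refine Eventually.of_forall fun x hx σ hσ => ?_
      have h1 : HasDerivAt (fun s : ℝ => ((x : ℂ) + s * I)) I σ := by
        have h2 : HasDerivAt (fun s : ℝ => (s : ℂ)) 1 σ := Complex.ofRealCLM.hasDerivAt
        have h3 := (h2.mul_const I).const_add (x : ℂ)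
        simpa using h3
      have hpos : 0 < ((x : ℂ) + σ * I).im := by
        rw [him]
        linarith [hσ.1]
      have h4 := (hhd _ hpos).comp_of_eq σ h1 rfl
      exact h4.mul_const _)
  have hval : (∫ x in (-R)..R, (deriv h ((x : ℂ) + τ * I) * I) * (φ x : ℂ))
      = -I * G R h (deriv φ) τ := by
    have hparts := intervalIntegral.integral_mul_deriv_eq_deriv_mul (a := -R) (b := R)
      (u := fun x : ℝ => h ((x : ℂ) + τ * I)) (v := fun x : ℝ => (φ x : ℂ))
      (u' := fun x : ℝ => deriv h ((x : ℂ) + τ * I)) (v' := fun x : ℝ => ((deriv φ x : ℝ) : ℂ))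
      (by
        intro x _
        have h1 : HasDerivAt (fun s : ℝ => ((s : ℂ) + τ * I)) 1 x := by
          have h2 : HasDerivAt (fun s : ℝ => (s : ℂ)) 1 x := Complex.ofRealCLM.hasDerivAt
          simpa using h2.add_const ((τ : ℂ) * I)
        have hpos : 0 < ((x : ℂ) + τ * I).im := by
          rw [him]
          exact hτ
        have h4 := (hhd _ hpos).comp_of_eq x h1 rfl
        have h5 : HasDerivAt (fun s : ℝ => h ((s : ℂ) + τ * I)) (deriv h ((x : ℂ) + τ * I) * 1) x := h4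
        rwa [mul_one] at h5)
      (by
        intro x _
        exact (hφd x).ofReal_comp)
      ((hc'x τ hτ).intervalIntegrable _ _)
      ((by fun_prop : Continuous fun x : ℝ => ((deriv φ x : ℝ) : ℂ)).intervalIntegrable _ _)
    have hR1 : φ R = 0 := hφ.supp R (le_abs_self R)
    have hR2 : φ (-R) = 0 := hφ.supp (-R) (by rw [abs_neg]; exact le_abs_self R)
    simp only [hR1, hR2, ofReal_zero, mul_zero, sub_zero, zero_sub] at hparts
    have e1 : (∫ x in (-R)..R, (deriv h ((x : ℂ) + τ * I) * I) * (φ x : ℂ))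
        = I * ∫ x in (-R)..R, deriv h ((x : ℂ) + τ * I) * (φ x : ℂ) := by
      rw [← intervalIntegral.integral_const_mul]
      apply intervalIntegral.integral_congr
      intro x _
      simp only
      ring
    rw [e1, G, hparts]
    ring
  have h2 := key.2
  rw [hval] at h2
  exact h2

theorem int_pow_le {τ q : ℝ} (hτ : 0 < τ) (hτ1 : τ ≤ 1) (hq : 0 < q) :
    ∫ σ in τ..1, σ ^ (-(q + 1)) ≤ τ ^ (-q) / q := by
  rw [integral_rpow (Or.inr ⟨by linarith, by
    rw [uIcc_of_le hτ1]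
    intro h
    linarith [h.1]⟩)]
  rw [show -(q + 1) + 1 = -q by ring, Real.one_rpow]
  rw [div_neg, ← neg_div, neg_sub]
  gcongr
  linarith

theorem int_half_le {τ : ℝ} (hτ : 0 < τ) (hτ1 : τ ≤ 1) :
    ∫ σ in τ..1, σ ^ (-(1 / 2) : ℝ) ≤ 2 := by
  rw [integral_rpow (Or.inl (by norm_num))]
  rw [show (-(1 / 2) : ℝ) + 1 = 1 / 2 by norm_num, Real.one_rpow]
  have := Real.rpow_nonneg hτ.le (1 / 2 : ℝ)
  rw [div_le_iff₀ (by norm_num)]
  linarith

theorem G_step {R : ℝ} (hR : 0 < R) {h : ℂ → ℂ} (hh : DifferentiableOn ℂ h {w | 0 < w.im})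
    {φ : ℝ → ℝ} (hφ : Tst R φ) {τ : ℝ} (hτ : 0 < τ) (hτ1 : τ ≤ 1) {b : ℝ → ℝ}
    (hb : ∀ σ, τ ≤ σ → σ ≤ 1 → ‖G R h (deriv φ) σ‖ ≤ b σ)
    (hbi : IntervalIntegrable b volume τ 1) :
    ‖G R h φ τ‖ ≤ ‖G R h φ 1‖ + ∫ σ in τ..1, b σ := by
  have hd : ∀ σ ∈ uIcc τ 1, HasDerivAt (G R h φ) (-I * G R h (deriv φ) σ) σ := by
    intro σ hσ
    rw [uIcc_of_le hτ1] at hσ
    exact G_hasDerivAt hR hh hφ (by linarith [hσ.1])
  have hc : ContinuousOn (fun σ => -I * G R h (deriv φ) σ) (uIcc τ 1) := by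
    intro σ hσ
    rw [uIcc_of_le hτ1] at hσ
    exact ((G_hasDerivAt hR hh (hφ.deriv hR) (by linarith [hσ.1] : 0 < σ)).continuousAt.const_mul
      (-I)).continuousWithinAt
  have h1 := intervalIntegral.integral_eq_sub_of_hasDerivAt hd (hc.intervalIntegrable)
  have h2 : G R h φ τ = G R h φ 1 - ∫ σ in τ..1, -I * G R h (deriv φ) σ := by
    rw [h1]
    ring
  rw [h2]
  refine (norm_sub_le _ _).trans ?_
  gcongr
  apply intervalIntegral.norm_integral_le_of_norm_le hτ1 _ hbi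
  refine Eventually.of_forall fun σ hσ => ?_
  rw [norm_mul, norm_neg, norm_I, one_mul]
  exact hb σ hσ.1.le hσ.2

/-- Descent in the exponent. -/
theorem descent {R : ℝ} (hR : 0 < R) {𝓗 : Set (ℂ → ℂ)}
    (hh : ∀ h ∈ 𝓗, DifferentiableOn ℂ h {w | 0 < w.im}) (k : ℕ) :
    (∀ φ, Tst R φ → ∃ D : ℝ, ∀ h ∈ 𝓗, ∀ τ : ℝ, 0 < τ → τ ≤ 1 →
      ‖G R h φ τ‖ ≤ D * τ ^ (-((k : ℝ) + 1 / 2))) →
    ∀ φ, Tst R φ → ∃ D : ℝ, ∀ h ∈ 𝓗, ∀ τ : ℝ, 0 < τ → τ ≤ 1 → ‖G R h φ τ‖ ≤ D := by
  induction k with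
  | zero =>
    intro hP φ hφ
    obtain ⟨D, hD⟩ := hP φ hφ
    obtain ⟨D', hD'⟩ := hP _ (hφ.deriv hR)
    refine ⟨D + |D'| * 2, ?_⟩
    intro h hm τ hτ hτ1
    have h1 := hD h hm 1 one_pos le_rfl
    rw [Real.one_rpow, mul_one] at h1
    have hint : IntervalIntegrable (fun σ : ℝ => |D'| * σ ^ (-(1 / 2) : ℝ)) volume τ 1 := by
      apply IntervalIntegrable.const_mul
      apply intervalIntegral.intervalIntegrable_rpow (Or.inr ?_)
      rw [uIcc_of_le hτ1]
      intro h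
      linarith [h.1]
    have h2 := G_step hR (hh h hm) hφ hτ hτ1 (b := fun σ => |D'| * σ ^ (-(1 / 2) : ℝ))
      (by
        intro σ hσ hσ1
        have h3 := hD' h hm σ (by linarith) hσ1
        refine h3.trans ?_
        have : (-(((0 : ℕ) : ℝ) + 1 / 2)) = (-(1 / 2) : ℝ) := by norm_num
        rw [this]
        have h4 : 0 ≤ σ ^ (-(1 / 2) : ℝ) := Real.rpow_nonneg (by linarith) _
        exact mul_le_mul_of_nonneg_right (le_abs_self D') h4) hint
    rw [intervalIntegral.integral_const_mul] at h2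
    have h5 := int_half_le hτ hτ1
    have h6 : |D'| * ∫ σ in τ..1, σ ^ (-(1 / 2) : ℝ) ≤ |D'| * 2 :=
      mul_le_mul_of_nonneg_left h5 (abs_nonneg _)
    linarith
  | succ k ih =>
    intro hP
    apply ih
    intro φ hφ
    obtain ⟨D, hD⟩ := hP φ hφ
    obtain ⟨D', hD'⟩ := hP _ (hφ.deriv hR)
    have hq : (0 : ℝ) < (k : ℝ) + 1 / 2 := by positivity
    refine ⟨|D| + |D'| / ((k : ℝ) + 1 / 2), ?_⟩
    intro h hm τ hτ hτ1
    have h1 := hD h hm 1 one_pos le_rfl
    rw [Real.one_rpow, mul_one] at h1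
    have hexp : (-(((k + 1 : ℕ) : ℝ) + 1 / 2)) = -(((k : ℝ) + 1 / 2) + 1) := by
      push_cast
      ring
    have hint : IntervalIntegrable (fun σ : ℝ => |D'| * σ ^ (-(((k : ℝ) + 1 / 2) + 1))) volume τ 1 := by
      apply IntervalIntegrable.const_mul
      apply intervalIntegral.intervalIntegrable_rpow (Or.inr ?_)
      rw [uIcc_of_le hτ1]
      intro h
      linarith [h.1]
    have h2 := G_step hR (hh h hm) hφ hτ hτ1
      (b := fun σ => |D'| * σ ^ (-(((k : ℝ) + 1 / 2) + 1)))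
      (by
        intro σ hσ hσ1
        have h3 := hD' h hm σ (by linarith) hσ1
        refine h3.trans ?_
        rw [hexp]
        have h4 : 0 ≤ σ ^ (-(((k : ℝ) + 1 / 2) + 1)) := Real.rpow_nonneg (by linarith) _
        exact mul_le_mul_of_nonneg_right (le_abs_self D') h4) hint
    rw [intervalIntegral.integral_const_mul] at h2
    have h5 := int_pow_le hτ hτ1 hq
    have h6 : |D'| * ∫ σ in τ..1, σ ^ (-(((k : ℝ) + 1 / 2) + 1))
        ≤ |D'| * (τ ^ (-((k : ℝ) + 1 / 2)) / ((k : ℝ) + 1 / 2)) :=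
      mul_le_mul_of_nonneg_left h5 (abs_nonneg _)
    have h7 : 1 ≤ τ ^ (-((k : ℝ) + 1 / 2)) := Real.one_le_rpow_of_pos_of_le_one_of_nonpos hτ hτ1
      (by linarith)
    have h8 : D ≤ |D| * τ ^ (-((k : ℝ) + 1 / 2)) := by
      have := mul_le_mul_of_nonneg_left h7 (abs_nonneg D)
      linarith [le_abs_self D]
    have h9 : |D'| * (τ ^ (-((k : ℝ) + 1 / 2)) / ((k : ℝ) + 1 / 2))
        = |D'| / ((k : ℝ) + 1 / 2) * τ ^ (-((k : ℝ) + 1 / 2)) := by ring
    rw [add_mul]
    linarith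

/-- **Boundary pairing.** Uniform bound of the pairing of `h(· + iτ)` with a test function for the
family of all `h` with `‖h w‖ ≤ C (Im w)^{-n}` near the segment. -/
theorem bdry {R C : ℝ} (hR : 0 < R) (hC : 0 ≤ C) (n : ℕ) {φ : ℝ → ℝ} (hφ : Tst R φ) :
    ∃ D : ℝ, 0 ≤ D ∧ ∀ h : ℂ → ℂ, DifferentiableOn ℂ h {w | 0 < w.im} →
      (∀ w : ℂ, |w.re| ≤ R → 0 < w.im → w.im ≤ 1 → ‖h w‖ ≤ C / w.im ^ n) →
      ∀ τ : ℝ, 0 < τ → τ ≤ 1 → ‖G R h φ τ‖ ≤ D := by
  set 𝓗 : Set (ℂ → ℂ) := {h | DifferentiableOn ℂ h {w | 0 < w.im} ∧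
    ∀ w : ℂ, |w.re| ≤ R → 0 < w.im → w.im ≤ 1 → ‖h w‖ ≤ C / w.im ^ n} with h𝓗
  have hP : ∀ φ, Tst R φ → ∃ D : ℝ, ∀ h ∈ 𝓗, ∀ τ : ℝ, 0 < τ → τ ≤ 1 →
      ‖G R h φ τ‖ ≤ D * τ ^ (-((n : ℝ) + 1 / 2)) := by
    intro φ hφ
    have hφc : Continuous φ := hφ.smooth.continuous
    obtain ⟨M, hM⟩ := isCompact_Icc.exists_bound_of_continuousOn (s := Icc (-R) R) (f := φ)
      hφc.continuousOn
    have hM0 : 0 ≤ M := (norm_nonneg _).trans (hM R ⟨by linarith, le_rfl⟩)
    refine ⟨C * M * (2 * R), ?_⟩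
    intro h hm τ hτ hτ1
    have h1 : ∀ x ∈ uIoc (-R) R, ‖h ((x : ℂ) + τ * I) * (φ x : ℂ)‖ ≤ C / τ ^ n * M := by
      intro x hx
      rw [uIoc_of_le (by linarith)] at hx
      rw [norm_mul]
      have h2 := hm.2 ((x : ℂ) + τ * I) (by simpa using abs_le.2 ⟨hx.1.le, hx.2⟩) (by simpa using hτ)
        (by simpa using hτ1)
      have h3 : ((x : ℂ) + τ * I).im = τ := by simp
      rw [h3] at h2
      have h4 : ‖(φ x : ℂ)‖ ≤ M := by
        rw [norm_real]
        exact hM x ⟨hx.1.le, hx.2⟩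
      exact mul_le_mul h2 h4 (norm_nonneg _) (by positivity)
    have h2 := intervalIntegral.norm_integral_le_of_norm_le_const h1
    rw [G]
    refine h2.trans ?_
    rw [show R - -R = 2 * R by ring, abs_of_pos (by linarith)]
    have h3 : C / τ ^ n ≤ C * τ ^ (-((n : ℝ) + 1 / 2)) := by
      rw [div_eq_mul_inv]
      apply mul_le_mul_of_nonneg_left _ hC
      rw [← Real.rpow_natCast, ← Real.rpow_neg hτ.le]
      apply Real.rpow_le_rpow_of_exponent_ge hτ hτ1
      linarith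
    calc C / τ ^ n * M * (2 * R) ≤ C * τ ^ (-((n : ℝ) + 1 / 2)) * M * (2 * R) := by gcongr
      _ = C * M * (2 * R) * τ ^ (-((n : ℝ) + 1 / 2)) := by ring
  obtain ⟨D, hD⟩ := descent hR (𝓗 := 𝓗) (fun h hm => hm.1) n hP φ hφ
  exact ⟨max D 0, le_max_right _ _, fun h h1 h2 τ hτ hτ1 => (hD h ⟨h1, h2⟩ τ hτ hτ1).trans
    (le_max_left _ _)⟩

end Vale.Agent.P097.H91
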