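import Vale.Agent.P097.H91.T2a
import Vale.Agent.P097.H407.Hol

/-!
# P097, row A4.5-T2, part b: the means of `log |S|` are Lipschitz up to the edge
-/

open Complex Metric Set Filter Topology MeasureTheory

namespace Vale.Agent.P097.H91

theorem hasDerivAt_log_norm {f : ℝ → ℂ} {f' : ℂ} {t : ℝ} (hf : HasDerivAt f f' t)
    (h0 : f t ≠ 0) : HasDerivAt (fun s => Real.log ‖f s‖) (f' / f t).re t := by
  have h1 := hf.norm_sq
  have hn : (‖f t‖ ^ 2) ≠ 0 := pow_ne_zero _ (norm_ne_zero_iff.2 h0)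
  have h2 := (h1.log hn).div_const 2
  have e1 : (fun s => Real.log (‖f s‖ ^ 2) / 2) = fun s => Real.log ‖f s‖ := by
    funext s
    rw [Real.log_pow]
    push_cast
    ring
  rw [e1] at h2
  have e2 : 2 * inner ℝ (f t) f' / ‖f t‖ ^ 2 / 2 = (f' / f t).re := by
    rw [Complex.inner, Complex.div_re, Complex.sq_norm]
    have : Complex.normSq (f t) ≠ 0 := by
      rw [← Complex.sq_norm]
      exact hn
    simp only [mul_re, conj_re, conj_im]
    field_simp
    ring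
  rw [e2] at h2
  exact h2

/-- The tube over `{|r| < κ m}`. -/
def T1 (κ : ℝ) : Set (ℂ × ℂ) := {z | |z.2.im| < κ * z.1.im}

theorem mem_T1 {κ : ℝ} {z : ℂ × ℂ} : z ∈ T1 κ ↔ |z.2.im| < κ * z.1.im := Iff.rfl

theorem T1_open (κ : ℝ) : IsOpen (T1 κ) :=
  isOpen_lt ((continuous_abs.comp (continuous_im.comp continuous_snd)))
    (continuous_const.mul (continuous_im.comp continuous_fst))

theorem T1_convex (κ : ℝ) : Convex ℝ (T1 κ) := by
  intro z hz w hw a b ha hb hab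
  rw [mem_T1] at hz hw ⊢
  simp only [Prod.snd_add, Prod.smul_snd, add_im, real_smul, mul_im, ofReal_re, ofReal_im,
    zero_mul, add_zero, Prod.fst_add, Prod.smul_fst]
  have h1 : |a * z.2.im + b * w.2.im| ≤ a * |z.2.im| + b * |w.2.im| := by
    refine (abs_add_le _ _).trans ?_
    rw [abs_mul, abs_mul, abs_of_nonneg ha, abs_of_nonneg hb]
  rcases ha.eq_or_lt with h0 | h0
  · have hb1 : b = 1 := by linarith
    subst hb1
    rw [← h0] at h1 ⊢
    simp only [zero_mul, one_mul, zero_add] at h1 ⊢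
    exact hw
  · have h2 : a * |z.2.im| < a * (κ * z.1.im) := mul_lt_mul_of_pos_left hz h0
    have h3 : b * |w.2.im| ≤ b * (κ * w.1.im) := mul_le_mul_of_nonneg_left hw.le hb
    linarith

/-- Depth in the tube. -/
noncomputable def dd (κ : ℝ) (z : ℂ × ℂ) : ℝ := κ * z.1.im - |z.2.im|

theorem dd_pos {κ : ℝ} {z : ℂ × ℂ} (hz : z ∈ T1 κ) : 0 < dd κ z := by
  rw [mem_T1] at hz
  unfold dd
  linarith

/-- The logarithmic derivative in the direction `v`. -/
noncomputable def lg (S : ℂ × ℂ → ℂ) (v z : ℂ × ℂ) : ℂ := fderiv ℂ S z v / S z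

/-- Hypotheses on `S`: holomorphic, zero free and of polynomial growth on the tube. -/
structure Hyp (κ : ℝ) (S : ℂ × ℂ → ℂ) : Prop where
  pos : 0 < κ
  hol : DifferentiableOn ℂ S (T1 κ)
  ne : ∀ z ∈ T1 κ, S z ≠ 0
  bd : ∀ R : ℝ, ∃ C : ℝ, ∃ m : ℕ, ∀ z ∈ T1 κ, ‖z‖ ≤ R → |Real.log ‖S z‖| ≤ C / dd κ z ^ m

variable {κ : ℝ} {S : ℂ × ℂ → ℂ}

theorem Hyp.lg_hol (H : Hyp κ S) (v : ℂ × ℂ) : DifferentiableOn ℂ (lg S v) (T1 κ) :=
  ((Hol.differentiableOn_fderiv_apply (T1_open κ) H.hol v).mul (H.hol.inv H.ne)).congr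
    (fun _ _ => div_eq_mul_inv _ _)

theorem im_abs_le (w : ℂ × ℂ) : |w.1.im| ≤ ‖w‖ ∧ |w.2.im| ≤ ‖w‖ :=
  ⟨(abs_im_le_norm _).trans (norm_fst_le w), (abs_im_le_norm _).trans (norm_snd_le w)⟩

theorem dd_add {w z : ℂ × ℂ} (hκ : 0 < κ) : dd κ z - (κ + 1) * ‖w‖ ≤ dd κ (z + w) := by
  obtain ⟨h1, h2⟩ := im_abs_le w
  unfold dd
  simp only [Prod.fst_add, Prod.snd_add, add_im]
  have h3 := abs_add_le z.2.im w.2.im
  have h4 := (abs_le.1 h1).1
  nlinarith [mul_le_mul_of_nonneg_left h4 hκ.le]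

/-- Gradient bound. -/
theorem Hyp.lg_bd (H : Hyp κ S) {R : ℝ} (hR : 0 < R) : ∃ C : ℝ, ∃ m : ℕ, 0 ≤ C ∧ ∀ v : ℂ × ℂ,
    ‖v‖ ≤ 1 → ∀ z ∈ T1 κ, ‖z‖ ≤ R → ‖lg S v z‖ ≤ C / dd κ z ^ m := by
  have hκ := H.pos
  obtain ⟨C, m, hC⟩ := H.bd (2 * R)
  refine ⟨16 * (κ + 1) * (|C| * 2 ^ m + (κ * R) ^ m), m + 1, by positivity, ?_⟩
  intro v hv z hz hzR
  have hd := dd_pos hz
  have hdR : dd κ z ≤ κ * R := by
    unfold dd
    have h1 := (im_abs_le z).1
    have h2 := (abs_le.1 h1).2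
    have h3 := abs_nonneg z.2.im
    nlinarith [mul_le_mul_of_nonneg_left (h2.trans hzR) hκ.le]
  set r := dd κ z / (2 * (κ + 1)) with hr
  have hrpos : 0 < r := by positivity
  have hrR : r ≤ R := by
    rw [hr, div_le_iff₀ (by positivity)]
    nlinarith
  have hpt : ∀ t ∈ ball (0 : ℂ) r, dd κ z / 2 ≤ dd κ (z + t • v) ∧ ‖z + t • v‖ ≤ 2 * R := by
    intro t ht
    rw [mem_ball_zero_iff] at ht
    have h1 : ‖t • v‖ ≤ r := by
      rw [norm_smul]
      calc ‖t‖ * ‖v‖ ≤ r * 1 := by gcongr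
        _ = r := mul_one r
    constructor
    · have h2 := dd_add (z := z) (w := t • v) hκ
      have h3 : (κ + 1) * ‖t • v‖ ≤ (κ + 1) * r := by gcongr
      have h4 : (κ + 1) * r = dd κ z / 2 := by
        rw [hr]
        field_simp
      linarith
    · refine (norm_add_le _ _).trans ?_
      linarith
  have hmem : ∀ t ∈ ball (0 : ℂ) r, z + t • v ∈ T1 κ := by
    intro t ht
    have h1 := (hpt t ht).1
    rw [mem_T1]
    have : 0 < dd κ (z + t • v) := by linarith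
    unfold dd at this
    linarith
  have hlin : ∀ t : ℂ, HasDerivAt (fun t : ℂ => z + t • v) v t := by
    intro t
    have h1 : HasDerivAt (fun t : ℂ => t • v) ((1 : ℂ) • v) t := (hasDerivAt_id t).smul_const v
    rw [one_smul] at h1
    exact h1.const_add z
  have hf : DifferentiableOn ℂ (fun t : ℂ => S (z + t • v)) (ball 0 r) := by
    intro t ht
    have h1 := H.hol.differentiableAt ((T1_open κ).mem_nhds (hmem t ht))
    exact (h1.comp t (hlin t).differentiableAt).differentiableWithinAt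
  have hder : deriv (fun t : ℂ => S (z + t • v)) 0 = fderiv ℂ S z v := by
    have h0 : z + (0 : ℂ) • v = z := by rw [zero_smul, add_zero]
    have h1 : HasFDerivAt S (fderiv ℂ S z) (z + (0 : ℂ) • v) := by
      rw [h0]
      exact (H.hol.differentiableAt ((T1_open κ).mem_nhds hz)).hasFDerivAt
    exact (h1.comp_hasDerivAt (0 : ℂ) (hlin 0)).deriv
  have hg := grad1 hrpos hf (fun t ht => H.ne _ (hmem t ht)) (B := |C| * 2 ^ m / dd κ z ^ m) (by
    intro t ht
    refine (hC _ (hmem t ht) (hpt t ht).2).trans ?_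
    have h1 := (hpt t ht).1
    have h2 : (dd κ z / 2) ^ m ≤ dd κ (z + t • v) ^ m := by gcongr
    calc C / dd κ (z + t • v) ^ m ≤ |C| / dd κ (z + t • v) ^ m := by
          have h3 : 0 < dd κ (z + t • v) ^ m := pow_pos (by linarith) m
          exact div_le_div_of_nonneg_right (le_abs_self C) h3.le
      _ ≤ |C| / (dd κ z / 2) ^ m := by gcongr
      _ = |C| * 2 ^ m / dd κ z ^ m := by
          rw [div_pow]
          field_simp)
  rw [hder] at hg
  simp only [zero_smul, add_zero] at hg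
  unfold lg
  refine hg.trans ?_
  have h1 : (1 : ℝ) ≤ (κ * R) ^ m / dd κ z ^ m := by
    rw [le_div_iff₀ (by positivity), one_mul]
    gcongr
  calc 8 * (|C| * 2 ^ m / dd κ z ^ m + 1) / r
      ≤ 8 * (|C| * 2 ^ m / dd κ z ^ m + (κ * R) ^ m / dd κ z ^ m) / r := by gcongr
    _ = 16 * (κ + 1) * (|C| * 2 ^ m + (κ * R) ^ m) / dd κ z ^ (m + 1) := by
        rw [hr]
        field_simp
        ring

/-- Real translation. -/
def tr (x : ℝ × ℝ) (z : ℂ × ℂ) : ℂ × ℂ := ((x.1 : ℂ) + z.1, (x.2 : ℂ) + z.2)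

theorem tr_mem {x : ℝ × ℝ} {z : ℂ × ℂ} : tr x z ∈ T1 κ ↔ z ∈ T1 κ := by
  simp [mem_T1, tr]

theorem tr_cont : Continuous fun p : (ℝ × ℝ) × (ℂ × ℂ) => tr p.1 p.2 := by
  unfold tr
  fun_prop

/-- The pairing of a function on the tube with the product test function. -/
noncomputable def A (R : ℝ) (φ₁ φ₂ : ℝ → ℝ) (a : ℂ × ℂ → ℂ) (z : ℂ × ℂ) : ℂ :=
  ∫ y in (-R)..R, (∫ x in (-R)..R, a (tr (x, y) z) * (φ₁ x : ℂ)) * (φ₂ y : ℂ)

/-- **Uniform bound of the pairings of the logarithmic derivatives.** -/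
theorem Hyp.A_bd (H : Hyp κ S) {R : ℝ} (hR : 0 < R) {φ₁ φ₂ : ℝ → ℝ} (h₁ : Tst R φ₁)
    (h₂ : Continuous φ₂) (ρ : ℝ) (hρ : 0 ≤ ρ) : ∃ B : ℝ, 0 ≤ B ∧ ∀ v : ℂ × ℂ, ‖v‖ ≤ 1 →
      ∀ z ∈ T1 κ, ‖z‖ ≤ ρ → ‖A R φ₁ φ₂ (lg S v) z‖ ≤ B := by
  have hκ := H.pos
  obtain ⟨C, m, hC0, hC⟩ := H.lg_bd (R := R + ρ + 2) (by linarith)
  obtain ⟨D, hD0, hD⟩ := bdry (R := R) (C := C / κ ^ m) hR (by positivity) m h₁
  obtain ⟨M, hM⟩ := isCompact_Icc.exists_bound_of_continuousOn (s := Icc (-R) R) (f := φ₂)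
    h₂.continuousOn
  have hM0 : 0 ≤ M := (norm_nonneg _).trans (hM R ⟨by linarith, le_rfl⟩)
  refine ⟨D * M * (2 * R), by positivity, ?_⟩
  intro v hv z hz hzρ
  -- shift down
  obtain ⟨ε, hε, hε1, hεz⟩ : ∃ ε : ℝ, 0 < ε ∧ ε ≤ 1 / 2 ∧ |z.2.im| < κ * (z.1.im - ε) := by
    have hd := dd_pos hz
    refine ⟨min (1 / 2) (dd κ z / (2 * κ)), by positivity, min_le_left _ _, ?_⟩
    have h1 : κ * min (1 / 2) (dd κ z / (2 * κ)) ≤ dd κ z / 2 := by
      calc κ * min (1 / 2) (dd κ z / (2 * κ)) ≤ κ * (dd κ z / (2 * κ)) := by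
            gcongr
            exact min_le_right _ _
        _ = dd κ z / 2 := by field_simp
    have h2 : dd κ z = κ * z.1.im - |z.2.im| := rfl
    nlinarith
  have hin : ∀ y : ℝ, |y| ≤ R → ‖∫ x in (-R)..R, lg S v (tr (x, y) z) * (φ₁ x : ℂ)‖ ≤ D := by
    intro y hy
    set h : ℂ → ℂ := fun w => lg S v (z.1 - ε * I + w, (y : ℂ) + z.2) with hh
    have hmem : ∀ w : ℂ, 0 < w.im → (z.1 - ε * I + w, (y : ℂ) + z.2) ∈ T1 κ := by
      intro w hw
      rw [mem_T1]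
      simp only [add_im, ofReal_im, zero_add, sub_im, mul_im, ofReal_re, I_im, mul_one, I_re,
        mul_zero, add_zero]
      nlinarith
    have hhd : DifferentiableOn ℂ h {w | 0 < w.im} := by
      intro w hw
      have h1 := (H.lg_hol v).differentiableAt ((T1_open κ).mem_nhds (hmem w hw))
      have h2 : DifferentiableAt ℂ (fun w : ℂ => ((z.1 - ε * I + w, (y : ℂ) + z.2) : ℂ × ℂ)) w := by
        fun_prop
      exact (h1.comp w h2).differentiableWithinAt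
    have hhb : ∀ w : ℂ, |w.re| ≤ R → 0 < w.im → w.im ≤ 1 → ‖h w‖ ≤ C / κ ^ m / w.im ^ m := by
      intro w hw1 hw2 hw3
      have hm := hmem w hw2
      have hn : ‖((z.1 - ε * I + w, (y : ℂ) + z.2) : ℂ × ℂ)‖ ≤ R + ρ + 2 := by
        rw [Prod.norm_def]
        apply max_le
        · have e1 : ‖z.1‖ ≤ ρ := (norm_fst_le z).trans hzρ
          have e2 : ‖w‖ ≤ R + 1 := by
            refine (norm_le_abs_re_add_abs_im w).trans ?_
            rw [abs_of_pos hw2]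
            linarith
          have e3 : ‖(ε : ℂ) * I‖ ≤ 1 / 2 := by
            rw [norm_mul, norm_I, mul_one, norm_real, Real.norm_eq_abs, abs_of_pos hε]
            exact hε1
          calc ‖z.1 - ε * I + w‖ ≤ ‖z.1‖ + ‖(ε : ℂ) * I‖ + ‖w‖ :=
                (norm_add_le _ _).trans (by gcongr; exact norm_sub_le _ _)
            _ ≤ R + ρ + 2 := by linarith
        · have e1 : ‖z.2‖ ≤ ρ := (norm_snd_le z).trans hzρ
          have e2 : ‖(y : ℂ)‖ ≤ R := by
            rw [norm_real]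
            exact hy
          calc ‖(y : ℂ) + z.2‖ ≤ ‖(y : ℂ)‖ + ‖z.2‖ := norm_add_le _ _
            _ ≤ R + ρ + 2 := by linarith
      refine (hC v hv _ hm hn).trans ?_
      have hdle : κ * w.im ≤ dd κ ((z.1 - ε * I + w, (y : ℂ) + z.2) : ℂ × ℂ) := by
        unfold dd
        simp only [add_im, ofReal_im, zero_add, sub_im, mul_im, ofReal_re, I_im, mul_one, I_re,
          mul_zero, add_zero]
        nlinarith
      have hpos : 0 < κ * w.im := by positivity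
      calc C / dd κ ((z.1 - ε * I + w, (y : ℂ) + z.2) : ℂ × ℂ) ^ m ≤ C / (κ * w.im) ^ m := by
            gcongr
        _ = C / κ ^ m / w.im ^ m := by
            rw [mul_pow]
            field_simp
    have hval := hD h hhd hhb ε hε (by linarith)
    have heq : G R h φ₁ ε = ∫ x in (-R)..R, lg S v (tr (x, y) z) * (φ₁ x : ℂ) := by
      unfold G
      apply intervalIntegral.integral_congr
      intro x _
      simp only [hh, tr]
      congr 3
      ring
    rw [heq] at hval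
    exact hval
  have h1 : ∀ y ∈ uIoc (-R) R,
      ‖(∫ x in (-R)..R, lg S v (tr (x, y) z) * (φ₁ x : ℂ)) * (φ₂ y : ℂ)‖ ≤ D * M := by
    intro y hy
    rw [uIoc_of_le (by linarith)] at hy
    rw [norm_mul]
    have h3 : ‖(φ₂ y : ℂ)‖ ≤ M := by
      rw [norm_real]
      exact hM y ⟨hy.1.le, hy.2⟩
    exact mul_le_mul (hin y (abs_le.2 ⟨hy.1.le, hy.2⟩)) h3 (norm_nonneg _) hD0
  have h2 := intervalIntegral.norm_integral_le_of_norm_le_const h1
  rw [A]
  refine h2.trans (le_of_eq ?_)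
  rw [show R - -R = 2 * R by ring, abs_of_pos (by linarith)]

end Vale.Agent.P097.H91
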