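import Vale.Agent.P097.H91.T2b

/-!
# P097, row A4.5-T2, part c: the means of `log |S|` are Lipschitz up to the edge
-/

open Complex Metric Set Filter Topology MeasureTheory

namespace Vale.Agent.P097.H91

variable {κ : ℝ} {S : ℂ × ℂ → ℂ}

/-- The mean of `log |S|` over the real plane through `z` against the product test function. -/
noncomputable def J (φ₁ φ₂ : ℝ → ℝ) (S : ℂ × ℂ → ℂ) (z : ℂ × ℂ) : ℝ :=
  ∫ x : ℝ × ℝ, Real.log ‖S (tr x z)‖ * (φ₁ x.1 * φ₂ x.2)

theorem Hyp.log_cont (H : Hyp κ S) {z : ℂ × ℂ} (hz : z ∈ T1 κ) :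
    Continuous fun x : ℝ × ℝ => Real.log ‖S (tr x z)‖ := by
  have h1 : Continuous fun x : ℝ × ℝ => S (tr x z) := by
    apply H.hol.continuousOn.comp_continuous
    · exact tr_cont.comp (continuous_id.prodMk continuous_const)
    · intro x
      exact tr_mem.2 hz
  exact h1.norm.log fun x => norm_ne_zero_iff.2 (H.ne _ (tr_mem.2 hz))

theorem J_eq {R : ℝ} {φ₁ φ₂ : ℝ → ℝ} (h₁ : ∀ x, R ≤ |x| → φ₁ x = 0)
    (h₂ : ∀ x, R ≤ |x| → φ₂ x = 0) (z : ℂ × ℂ) :
    J φ₁ φ₂ S z = ∫ x in Ioc (-R) R ×ˢ Ioc (-R) R, Real.log ‖S (tr x z)‖ * (φ₁ x.1 * φ₂ x.2) := by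
  unfold J
  symm
  apply setIntegral_eq_integral_of_forall_compl_eq_zero
  intro x hx
  have hout : ∀ t : ℝ, t ∉ Ioc (-R) R → R ≤ |t| := by
    intro t ht
    by_contra hlt
    push Not at hlt
    obtain ⟨h1, h2⟩ := abs_lt.1 hlt
    exact ht ⟨h1, h2.le⟩
  rw [mem_prod, not_and_or] at hx
  rcases hx with hx | hx
  · rw [h₁ _ (hout _ hx), zero_mul, mul_zero]
  · rw [h₂ _ (hout _ hx), mul_zero, mul_zero]

theorem A_smul (R : ℝ) (φ₁ φ₂ : ℝ → ℝ) (S : ℂ × ℂ → ℂ) (c : ℝ) (v z : ℂ × ℂ) :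
    A R φ₁ φ₂ (lg S (c • v)) z = c * A R φ₁ φ₂ (lg S v) z := by
  unfold A
  rw [← intervalIntegral.integral_const_mul]
  apply intervalIntegral.integral_congr
  intro y _
  simp only
  rw [← mul_assoc, ← intervalIntegral.integral_const_mul]
  congr 1
  apply intervalIntegral.integral_congr
  intro x _
  simp only [lg]
  have : (c • v) = (c : ℂ) • v := by
    ext <;> simp
  rw [this, map_smul, smul_eq_mul]
  ring

/-- **(T2)** The means of `log |S|` against a test function are Lipschitz on the tube, up to the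
edge. -/
theorem Hyp.lip (H : Hyp κ S) {R : ℝ} (hR : 0 < R) {φ₁ φ₂ : ℝ → ℝ} (h₁ : Tst R φ₁)
    (h₂ : Continuous φ₂) (h₂' : ∀ x, R ≤ |x| → φ₂ x = 0) (ρ : ℝ) (hρ : 0 ≤ ρ) :
    ∃ B : ℝ, 0 ≤ B ∧ ∀ z ∈ T1 κ, ‖z‖ ≤ ρ → ∀ w ∈ T1 κ, ‖w‖ ≤ ρ →
      |J φ₁ φ₂ S z - J φ₁ φ₂ S w| ≤ B * ‖z - w‖ := by
  obtain ⟨B, hB0, hB⟩ := H.A_bd hR h₁ h₂ ρ hρ
  refine ⟨B, hB0, ?_⟩
  intro z hz hzρ w hw hwρ
  set v : ℂ × ℂ := z - w with hv
  set K : Set (ℝ × ℝ) := Ioc (-R) R ×ˢ Ioc (-R) R with hK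
  have hφ₁c : Continuous φ₁ := h₁.smooth.continuous
  -- the path
  have hγ : ∀ t : ℝ, t ∈ Icc (0 : ℝ) 1 → w + t • v ∈ T1 κ ∧ ‖w + t • v‖ ≤ ρ := by
    intro t ht
    have e1 : w + t • v = (1 - t) • w + t • z := by
      rw [hv, smul_sub, sub_smul, one_smul]
      abel
    rw [e1]
    constructor
    · exact (T1_convex κ) hw hz (by linarith [ht.2]) ht.1 (by ring)
    · refine (norm_add_le _ _).trans ?_
      rw [norm_smul, norm_smul, Real.norm_eq_abs, Real.norm_eq_abs, abs_of_nonneg ht.1,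
        abs_of_nonneg (by linarith [ht.2] : (0 : ℝ) ≤ 1 - t)]
      nlinarith [mul_le_mul_of_nonneg_left hwρ (by linarith [ht.2] : (0 : ℝ) ≤ 1 - t),
        mul_le_mul_of_nonneg_left hzρ ht.1]
  -- the integrand
  have hFc : ContinuousOn (fun p : (ℝ × ℝ) × ℝ => lg S v (tr p.1 (w + p.2 • v)) *
      ((φ₁ p.1.1 * φ₂ p.1.2 : ℝ) : ℂ)) (univ ×ˢ Icc (0 : ℝ) 1) := by
    apply ContinuousOn.mul
    · apply (H.lg_hol v).continuousOn.comp
      · apply Continuous.continuousOn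
        exact tr_cont.comp (continuous_fst.prodMk (by fun_prop))
      · intro p hp
        exact tr_mem.2 (hγ p.2 hp.2).1
    · apply Continuous.continuousOn
      fun_prop
  have hint : Integrable (fun p : (ℝ × ℝ) × ℝ => lg S v (tr p.1 (w + p.2 • v)) *
      ((φ₁ p.1.1 * φ₂ p.1.2 : ℝ) : ℂ)) ((volume.restrict K).prod (volume.restrict (Ioc 0 1))) := by
    rw [Measure.prod_restrict]
    have h1 : IntegrableOn (fun p : (ℝ × ℝ) × ℝ => lg S v (tr p.1 (w + p.2 • v)) *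
        ((φ₁ p.1.1 * φ₂ p.1.2 : ℝ) : ℂ)) ((Icc (-R) R ×ˢ Icc (-R) R) ×ˢ Icc (0 : ℝ) 1)
        (volume.prod volume) := by
      apply ContinuousOn.integrableOn_compact
      · exact (isCompact_Icc.prod isCompact_Icc).prod isCompact_Icc
      · exact hFc.mono (prod_mono (subset_univ _) le_rfl)
    exact h1.mono_set (prod_mono (prod_mono Ioc_subset_Icc_self Ioc_subset_Icc_self)
      Ioc_subset_Icc_self)
  -- pointwise identity
  have hpt : ∀ x : ℝ × ℝ, ((∫ t in Ioc (0 : ℝ) 1, lg S v (tr x (w + t • v))).re)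
      = Real.log ‖S (tr x z)‖ - Real.log ‖S (tr x w)‖ := by
    intro x
    have hc : ContinuousOn (fun t : ℝ => lg S v (tr x (w + t • v))) (Icc 0 1) := by
      apply (H.lg_hol v).continuousOn.comp
      · apply Continuous.continuousOn
        exact tr_cont.comp (continuous_const.prodMk (by fun_prop))
      · intro t ht
        exact tr_mem.2 (hγ t ht).1
    have hd : ∀ t ∈ uIcc (0 : ℝ) 1, HasDerivAt (fun t : ℝ => Real.log ‖S (tr x (w + t • v))‖)
        (lg S v (tr x (w + t • v))).re t := by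
      intro t ht
      rw [uIcc_of_le zero_le_one] at ht
      have hm := tr_mem (x := x).2 (hγ t ht).1
      have hS := (H.hol.differentiableAt ((T1_open κ).mem_nhds hm)).hasFDerivAt
      have hlin : HasDerivAt (fun t : ℝ => tr x (w + t • v)) v t := by
        have e1 : (fun t : ℝ => tr x (w + t • v)) = fun t : ℝ => tr x w + t • v := by
          funext t
          ext <;> simp [tr, add_assoc]
        rw [e1]
        have h1 : HasDerivAt (fun t : ℝ => t • v) ((1 : ℝ) • v) t := (hasDerivAt_id t).smul_const v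
        rw [one_smul] at h1
        exact h1.const_add _
      have h1 := HasFDerivAt.comp_hasDerivAt (f := fun t : ℝ => tr x (w + t • v)) t
        (hS.restrictScalars ℝ) hlin
      exact hasDerivAt_log_norm h1 (H.ne _ hm)
    have h1 : IntervalIntegrable (fun t : ℝ => lg S v (tr x (w + t • v))) volume 0 1 := by
      apply ContinuousOn.intervalIntegrable
      rwa [uIcc_of_le zero_le_one]
    have h2 : IntervalIntegrable (fun t : ℝ => (lg S v (tr x (w + t • v))).re) volume 0 1 := by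
      apply ContinuousOn.intervalIntegrable
      rw [uIcc_of_le zero_le_one]
      exact continuous_re.comp_continuousOn hc
    have h3 := intervalIntegral.integral_eq_sub_of_hasDerivAt hd h2
    rw [intervalIntegral.integral_of_le zero_le_one] at h3
    have h4 : ∫ t in Ioc (0 : ℝ) 1, (lg S v (tr x (w + t • v))).re
        = (∫ t in Ioc (0 : ℝ) 1, lg S v (tr x (w + t • v))).re := by
      have h5 : IntegrableOn (fun t : ℝ => lg S v (tr x (w + t • v))) (Ioc 0 1) := by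
        rwa [intervalIntegrable_iff_integrableOn_Ioc_of_le zero_le_one] at h1
      have := Complex.reCLM.integral_comp_comm h5
      simpa using this
    rw [← h4, h3]
    have e0 : w + (1 : ℝ) • v = z := by
      rw [one_smul, hv]
      abel
    have e1 : w + (0 : ℝ) • v = w := by rw [zero_smul, add_zero]
    rw [e0, e1]
  -- integrability of the two means
  have hlogint : ∀ u ∈ T1 κ, IntegrableOn (fun x : ℝ × ℝ => Real.log ‖S (tr x u)‖ *
      (φ₁ x.1 * φ₂ x.2)) K := by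
    intro u hu
    have h1 : IntegrableOn (fun x : ℝ × ℝ => Real.log ‖S (tr x u)‖ *
        (φ₁ x.1 * φ₂ x.2)) (Icc (-R) R ×ˢ Icc (-R) R) := by
      apply ContinuousOn.integrableOn_compact (isCompact_Icc.prod isCompact_Icc)
      apply Continuous.continuousOn
      exact (H.log_cont hu).mul (by fun_prop)
    exact h1.mono_set (prod_mono Ioc_subset_Icc_self Ioc_subset_Icc_self)
  have hswap := integral_integral_swap (μ := volume.restrict K) (ν := volume.restrict (Ioc (0 : ℝ) 1))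
    (f := fun x t => lg S v (tr x (w + t • v)) * ((φ₁ x.1 * φ₂ x.2 : ℝ) : ℂ)) hint
  have hA : ∀ t ∈ Icc (0 : ℝ) 1, ∫ x in K, lg S v (tr x (w + t • v)) *
      ((φ₁ x.1 * φ₂ x.2 : ℝ) : ℂ) = A R φ₁ φ₂ (lg S v) (w + t • v) := by
    intro t ht
    have hcx : Continuous fun x : ℝ × ℝ => lg S v (tr x (w + t • v)) *
        ((φ₁ x.1 * φ₂ x.2 : ℝ) : ℂ) := by
      apply Continuous.mul
      · apply (H.lg_hol v).continuousOn.comp_continuous
        · exact tr_cont.comp (continuous_id.prodMk continuous_const)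
        · intro x
          exact tr_mem.2 (hγ t ht).1
      · fun_prop
    have h1 : IntegrableOn (fun x : ℝ × ℝ => lg S v (tr x (w + t • v)) *
        ((φ₁ x.1 * φ₂ x.2 : ℝ) : ℂ)) (Icc (-R) R ×ˢ Icc (-R) R) (volume.prod volume) :=
      hcx.continuousOn.integrableOn_compact (isCompact_Icc.prod isCompact_Icc)
    have h2 : IntegrableOn (fun x : ℝ × ℝ => lg S v (tr x (w + t • v)) *
        ((φ₁ x.1 * φ₂ x.2 : ℝ) : ℂ)) (Ioc (-R) R ×ˢ Ioc (-R) R) (volume.prod volume) :=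
      h1.mono_set (prod_mono Ioc_subset_Icc_self Ioc_subset_Icc_self)
    have h3 : Integrable (fun x : ℝ × ℝ => lg S v (tr x (w + t • v)) *
        ((φ₁ x.1 * φ₂ x.2 : ℝ) : ℂ))
        ((volume.restrict (Ioc (-R) R)).prod (volume.restrict (Ioc (-R) R))) := by
      rw [Measure.prod_restrict]
      exact h2
    have h4 : ∫ x in K, lg S v (tr x (w + t • v)) * ((φ₁ x.1 * φ₂ x.2 : ℝ) : ℂ)
        = ∫ y in Ioc (-R) R, ∫ x in Ioc (-R) R, lg S v (tr (x, y) (w + t • v)) *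
          ((φ₁ x * φ₂ y : ℝ) : ℂ) := by
      have e1 := integral_prod_symm (μ := volume.restrict (Ioc (-R) R))
        (ν := volume.restrict (Ioc (-R) R)) _ h3
      rw [Measure.prod_restrict] at e1
      exact e1
    rw [h4, A, intervalIntegral.integral_of_le (by linarith)]
    apply setIntegral_congr_fun measurableSet_Ioc
    intro y _
    simp only
    rw [intervalIntegral.integral_of_le (by linarith), ← integral_mul_const]
    apply integral_congr_ae
    refine Eventually.of_forall fun x => ?_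
    simp only
    push_cast
    ring
  -- the difference of the means
  have hdiff : J φ₁ φ₂ S z - J φ₁ φ₂ S w
      = (∫ t in Ioc (0 : ℝ) 1, A R φ₁ φ₂ (lg S v) (w + t • v)).re := by
    rw [J_eq h₁.supp h₂' z, J_eq h₁.supp h₂' w, ← integral_sub (hlogint z hz) (hlogint w hw)]
    have e1 : ∫ t in Ioc (0 : ℝ) 1, A R φ₁ φ₂ (lg S v) (w + t • v)
        = ∫ t in Ioc (0 : ℝ) 1, ∫ x in K, lg S v (tr x (w + t • v)) *
          ((φ₁ x.1 * φ₂ x.2 : ℝ) : ℂ) := by
      apply setIntegral_congr_fun measurableSet_Ioc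
      intro t ht
      exact (hA t ⟨ht.1.le, ht.2⟩).symm
    rw [e1, ← hswap]
    have e2 : Integrable (fun x : ℝ × ℝ => ∫ t in Ioc (0 : ℝ) 1, lg S v (tr x (w + t • v)) *
        ((φ₁ x.1 * φ₂ x.2 : ℝ) : ℂ)) (volume.restrict K) := hint.integral_prod_left
    have e3 := Complex.reCLM.integral_comp_comm e2
    simp only [reCLM_apply] at e3
    rw [← e3]
    apply integral_congr_ae
    refine Eventually.of_forall fun x => ?_
    simp only
    rw [integral_mul_const, re_mul_ofReal, hpt x]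
    ring
  rw [hdiff]
  have hbound : ∀ t ∈ Ioc (0 : ℝ) 1, ‖A R φ₁ φ₂ (lg S v) (w + t • v)‖ ≤ B * ‖z - w‖ := by
    intro t ht
    obtain ⟨hm, hn⟩ := hγ t ⟨ht.1.le, ht.2⟩
    rcases eq_or_ne v 0 with h0 | h0
    · have e1 : lg S v = lg S ((0 : ℝ) • (0 : ℂ × ℂ)) := by rw [h0, smul_zero]
      rw [e1, A_smul]
      simp only [ofReal_zero, zero_mul, norm_zero]
      positivity
    · have hvn : ‖v‖ ≠ 0 := norm_ne_zero_iff.2 h0
      have e1 : v = ‖v‖ • (‖v‖⁻¹ • v) := by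
        rw [smul_smul, mul_inv_cancel₀ hvn, one_smul]
      have e2 : lg S v = lg S (‖v‖ • (‖v‖⁻¹ • v)) := by rw [← e1]
      rw [e2, A_smul, norm_mul, norm_real, Real.norm_eq_abs, abs_of_nonneg (norm_nonneg v),
        mul_comm]
      have h5 := hB (‖v‖⁻¹ • v) (by
        rw [norm_smul, norm_inv, norm_norm, inv_mul_cancel₀ hvn]) (w + t • v) hm hn
      exact mul_le_mul_of_nonneg_right h5 (norm_nonneg _)
  have hfin := norm_setIntegral_le_of_norm_le_const (μ := volume) (s := Ioc (0 : ℝ) 1)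
    (by simp) hbound
  have hvol : volume.real (Ioc (0 : ℝ) 1) = 1 := by simp
  rw [hvol, mul_one] at hfin
  exact (abs_re_le_norm _).trans hfin

/-- **(T2), limit form.** -/
theorem Hyp.lim (H : Hyp κ S) {R : ℝ} (hR : 0 < R) {φ₁ φ₂ : ℝ → ℝ} (h₁ : Tst R φ₁)
    (h₂ : Continuous φ₂) (h₂' : ∀ x, R ≤ |x| → φ₂ x = 0) (ρ : ℝ) (hρ : 0 < ρ) :
    ∃ B L : ℝ, 0 ≤ B ∧ (∀ z ∈ T1 κ, ‖z‖ ≤ ρ → |J φ₁ φ₂ S z - L| ≤ B * ‖z‖) ∧
      ∀ z ∈ T1 κ, ‖z‖ ≤ ρ → ∀ w ∈ T1 κ, ‖w‖ ≤ ρ →
        |J φ₁ φ₂ S z - J φ₁ φ₂ S w| ≤ B * ‖z - w‖ := by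
  have hκ := H.pos
  obtain ⟨B, hB0, hB⟩ := H.lip hR h₁ h₂ h₂' ρ hρ.le
  -- the sequence along the axis
  set u : ℕ → ℂ × ℂ := fun n => (((ρ / ((n : ℝ) + 1) : ℝ) : ℂ) * I, 0) with hu
  have hun : ∀ n, ‖u n‖ = ρ / ((n : ℝ) + 1) := by
    intro n
    rw [hu, Prod.norm_def]
    simp only [norm_mul, norm_I, mul_one, norm_real, norm_zero, Real.norm_eq_abs]
    rw [abs_of_pos (by positivity)]
    exact max_eq_left (by positivity)
  have hum : ∀ n, u n ∈ T1 κ := by
    intro n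
    rw [mem_T1, hu]
    simp only [zero_im, abs_zero, mul_im, ofReal_re, I_im, mul_one, ofReal_im, I_re, mul_zero,
      add_zero]
    positivity
  have hun' : ∀ n, ‖u n‖ ≤ ρ := by
    intro n
    rw [hun]
    apply div_le_self hρ.le
    have : (0 : ℝ) ≤ n := Nat.cast_nonneg n
    linarith
  have hu0 : Tendsto u atTop (𝓝 0) := by
    rw [tendsto_zero_iff_norm_tendsto_zero]
    simp only [hun]
    have h1 := (tendsto_one_div_add_atTop_nhds_zero_nat (𝕜 := ℝ)).const_mul ρ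
    simpa [div_eq_mul_inv] using h1
  have hcau : CauchySeq fun n => J φ₁ φ₂ S (u n) := by
    have hc := hu0.cauchySeq
    rw [Metric.cauchySeq_iff] at hc ⊢
    intro ε hε
    obtain ⟨N, hN⟩ := hc (ε / (B + 1)) (by positivity)
    refine ⟨N, fun m hm n hn => ?_⟩
    have h1 := hN m hm n hn
    rw [dist_eq_norm] at h1 ⊢
    rw [Real.norm_eq_abs]
    calc |J φ₁ φ₂ S (u m) - J φ₁ φ₂ S (u n)| ≤ B * ‖u m - u n‖ :=
          hB _ (hum m) (hun' m) _ (hum n) (hun' n)
      _ ≤ B * (ε / (B + 1)) := by gcongr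
      _ < ε := by
          rw [mul_div_assoc', div_lt_iff₀ (by positivity)]
          nlinarith
  obtain ⟨L, hL⟩ := cauchySeq_tendsto_of_complete hcau
  refine ⟨B, L, hB0, ?_, hB⟩
  intro z hz hzρ
  have h1 : Tendsto (fun n => |J φ₁ φ₂ S z - J φ₁ φ₂ S (u n)|) atTop (𝓝 |J φ₁ φ₂ S z - L|) :=
    (tendsto_const_nhds.sub hL).abs
  have h2 : Tendsto (fun n => B * ‖z - u n‖) atTop (𝓝 (B * ‖z‖)) := by
    have h3 : Tendsto (fun n => z - u n) atTop (𝓝 (z - 0)) := tendsto_const_nhds.sub hu0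
    rw [sub_zero] at h3
    exact (h3.norm).const_mul B
  exact le_of_tendsto_of_tendsto' h1 h2 fun n => hB z hz hzρ _ (hum n) (hun' n)

end Vale.Agent.P097.H91
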