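import Mathlib

/-! # P097, row T-DISC (TD): zones of the lateral boundary and the bound at the target -/

open Filter Metric Set Complex Topology

namespace Vale.Agent.P097.H91.TD

/-- powers of logarithms against powers -/
theorem pow_log_le {M ε : ℝ} (hM : 0 ≤ M) (hε : 0 < ε) (N : ℕ) :
    ∃ C : ℝ, 1 ≤ C ∧ ∀ x : ℝ, 1 ≤ x → (M + Real.log x) ^ N ≤ C * x ^ ε := by
  set a : ℝ := ε / (N + 1) with ha
  have ha0 : 0 < a := by positivity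
  refine ⟨max 1 ((M + 1 / a) ^ N), le_max_left _ _, fun x hx => ?_⟩
  have hx0 : 0 < x := by linarith
  have h1 : Real.log x ≤ x ^ a / a := Real.log_le_rpow_div hx0.le ha0
  have h2 : 1 ≤ x ^ a := Real.one_le_rpow hx ha0.le
  have h3 : 0 ≤ Real.log x := Real.log_nonneg hx
  have h4 : M + Real.log x ≤ (M + 1 / a) * x ^ a := by
    have : x ^ a / a = 1 / a * x ^ a := by ring
    nlinarith
  have h5 : (M + Real.log x) ^ N ≤ ((M + 1 / a) * x ^ a) ^ N :=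
    pow_le_pow_left₀ (by linarith) h4 N
  refine h5.trans ?_
  rw [mul_pow]
  have h6 : (x ^ a) ^ N ≤ x ^ ε := by
    rw [← Real.rpow_natCast, ← Real.rpow_mul hx0.le]
    apply Real.rpow_le_rpow_of_exponent_le hx
    rw [ha, div_mul_eq_mul_div, div_le_iff₀ (by positivity)]
    nlinarith
  have h7 : 0 ≤ (M + 1 / a) ^ N := by positivity
  calc (M + 1 / a) ^ N * (x ^ a) ^ N ≤ (M + 1 / a) ^ N * x ^ ε :=
        mul_le_mul_of_nonneg_left h6 h7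
    _ ≤ max 1 ((M + 1 / a) ^ N) * x ^ ε :=
        mul_le_mul_of_nonneg_right (le_max_right _ _) (Real.rpow_nonneg hx0.le _)

/-- the smallness condition of the near zone -/
theorem near_small {K M : ℝ} (hK : 0 ≤ K) (hM : 0 ≤ M) (N : ℕ) :
    ∃ e₀ > 0, ∀ e x : ℝ, 0 < e → e < e₀ → 1 ≤ x → e * x ≤ 2 →
      K * (e * (x ^ ((1 : ℝ) / 2) * (M + Real.log x) ^ N)) < 1 := by
  obtain ⟨C, hC, hCx⟩ := pow_log_le hM (ε := 1 / 4) (by norm_num) N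
  have hlim : Tendsto (fun e : ℝ => K * C * 2 * e ^ ((1 : ℝ) / 4)) (𝓝 0) (𝓝 (K * C * 2 * 0)) := by
    apply Tendsto.const_mul
    have : ContinuousAt (fun e : ℝ => e ^ ((1 : ℝ) / 4)) 0 :=
      Real.continuousAt_rpow_const _ _ (Or.inr (by norm_num))
    have h := this.tendsto
    simpa using h
  rw [mul_zero] at hlim
  obtain ⟨e₀, he₀, he⟩ := Metric.eventually_nhds_iff.1 (hlim.eventually (gt_mem_nhds one_pos))
  refine ⟨e₀, he₀, fun e x he1 he2 hx hex => ?_⟩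
  have hx0 : 0 < x := by linarith
  have h0 := he (y := e) (by rw [Real.dist_eq, sub_zero, abs_of_pos he1]; exact he2)
  refine lt_of_le_of_lt ?_ h0
  have h1 := hCx x hx
  have h2 : e * (x ^ ((1 : ℝ) / 2) * (M + Real.log x) ^ N) ≤ C * 2 * e ^ ((1 : ℝ) / 4) := by
    have h3 : x ^ ((1 : ℝ) / 2) * (M + Real.log x) ^ N ≤ C * x ^ ((3 : ℝ) / 4) := by
      calc x ^ ((1 : ℝ) / 2) * (M + Real.log x) ^ N ≤ x ^ ((1 : ℝ) / 2) * (C * x ^ ((1 : ℝ) / 4)) :=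
            mul_le_mul_of_nonneg_left h1 (Real.rpow_nonneg hx0.le _)
        _ = C * x ^ ((3 : ℝ) / 4) := by
            rw [mul_left_comm, ← Real.rpow_add hx0]; norm_num
    have h4 : e = e ^ ((3 : ℝ) / 4) * e ^ ((1 : ℝ) / 4) := by
      rw [← Real.rpow_add he1]; norm_num
    have h5 : (e * x) ^ ((3 : ℝ) / 4) ≤ 2 := by
      calc (e * x) ^ ((3 : ℝ) / 4) ≤ (2 : ℝ) ^ ((3 : ℝ) / 4) :=
            Real.rpow_le_rpow (by positivity) hex (by norm_num)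
        _ ≤ (2 : ℝ) ^ (1 : ℝ) := Real.rpow_le_rpow_of_exponent_le (by norm_num) (by norm_num)
        _ = 2 := Real.rpow_one 2
    rw [Real.mul_rpow he1.le hx0.le] at h5
    have h6 : 0 ≤ e ^ ((1 : ℝ) / 4) := Real.rpow_nonneg he1.le _
    calc e * (x ^ ((1 : ℝ) / 2) * (M + Real.log x) ^ N) ≤ e * (C * x ^ ((3 : ℝ) / 4)) :=
          mul_le_mul_of_nonneg_left h3 he1.le
      _ = C * (e ^ ((3 : ℝ) / 4) * x ^ ((3 : ℝ) / 4)) * e ^ ((1 : ℝ) / 4) := by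
          nth_rewrite 1 [h4]; ring
      _ ≤ C * 2 * e ^ ((1 : ℝ) / 4) := by gcongr
  calc K * (e * (x ^ ((1 : ℝ) / 2) * (M + Real.log x) ^ N)) ≤ K * (C * 2 * e ^ ((1 : ℝ) / 4)) :=
        mul_le_mul_of_nonneg_left h2 hK
    _ = K * C * 2 * e ^ ((1 : ℝ) / 4) := by ring

/-- **zones**: the bound of a function `F = ‖f‖` at a boundary point in terms of
`x = 1 + |w - u| / (ρ r)`; near zone `e ρ x ≤ 2`, crude bound elsewhere -/
theorem zones {M : ℝ} (hM : 1 ≤ M) {K : ℝ} (hK : 1 ≤ K) :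
    ∃ C : ℝ, 1 ≤ C ∧ ∀ (e ρ x F : ℝ), 0 < e → 1 ≤ ρ → e * ρ ^ 2 ≤ 2 → 1 ≤ x →
      (e * ρ * x ≤ 2 → F ≤ K * (e * ((ρ * x) ^ ((1 : ℝ) / 2) * (M + Real.log x) ^ 4))) →
      (2 < e * ρ * x → F ≤ (1 + Real.log ρ) * Real.exp (K * x ^ ((1 : ℝ) / 2))) →
      F ≤ e * Real.exp (Real.log K + 1 / 2 * Real.log ρ + 1 / 2 * Real.log x +
        4 * Real.log (M + Real.log x) + C * (e * ρ) ^ ((1 : ℝ) / 4) * x ^ ((3 : ℝ) / 4)) := by
  obtain ⟨C₂, hC₂, h₂⟩ := pow_log_le (M := 0) le_rfl (ε := 1 / 2) (by norm_num) 1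
  refine ⟨K + 3 * C₂, by linarith, ?_⟩
  intro e ρ x F he hρ heρ hx hnear hfar
  have hx0 : 0 < x := by linarith
  have hρ0 : 0 < ρ := by linarith
  have hlx : 0 ≤ Real.log x := Real.log_nonneg hx
  have hlρ : 0 ≤ Real.log ρ := Real.log_nonneg hρ
  have hlM : 0 ≤ Real.log (M + Real.log x) := Real.log_nonneg (by linarith)
  have hlK : 0 ≤ Real.log K := Real.log_nonneg hK
  have heρ0 : 0 < e * ρ := by positivity
  have he4 : 0 ≤ (e * ρ) ^ ((1 : ℝ) / 4) := Real.rpow_nonneg heρ0.le _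
  have hx34 : 0 ≤ x ^ ((3 : ℝ) / 4) := Real.rpow_nonneg hx0.le _
  rcases le_or_gt (e * ρ * x) 2 with h | h
  · refine (hnear h).trans ?_
    have h3 : K * (e * ((ρ * x) ^ ((1 : ℝ) / 2) * (M + Real.log x) ^ 4)) =
        e * Real.exp (Real.log K + 1 / 2 * Real.log ρ + 1 / 2 * Real.log x +
          4 * Real.log (M + Real.log x)) := by
      rw [Real.exp_add, Real.exp_add, Real.exp_add, Real.exp_log (by linarith),
        Real.mul_rpow hρ0.le hx0.le, Real.rpow_def_of_pos hρ0, Real.rpow_def_of_pos hx0]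
      have h4 : Real.exp (4 * Real.log (M + Real.log x)) = (M + Real.log x) ^ 4 := by
        rw [show (4 : ℝ) * Real.log (M + Real.log x) = ((4 : ℕ) : ℝ) * Real.log (M + Real.log x) by
          norm_num, Real.exp_nat_mul, Real.exp_log (by linarith)]
      rw [h4, mul_comm (Real.log ρ), mul_comm (Real.log x)]
      ring
    rw [h3]
    apply mul_le_mul_of_nonneg_left _ he.le
    apply Real.exp_le_exp.mpr
    have : 0 ≤ (K + 3 * C₂) * (e * ρ) ^ ((1 : ℝ) / 4) * x ^ ((3 : ℝ) / 4) := by positivity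
    linarith
  · -- `x` is large
    have hρx : ρ ≤ x := by
      have h5 : e * ρ * ρ ≤ e * ρ * x := by nlinarith
      exact le_of_mul_le_mul_left h5 heρ0
    have hlρx : Real.log ρ ≤ Real.log x := Real.log_le_log hρ0 hρx
    have hle : -Real.log e ≤ Real.log ρ + Real.log x := by
      have h6 : Real.log 1 ≤ Real.log (e * ρ * x) := Real.log_le_log one_pos (by linarith)
      rw [Real.log_one, Real.log_mul (by positivity) (by positivity),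
        Real.log_mul (by positivity) (by positivity)] at h6
      linarith
    have h1 : 1 ≤ (e * ρ) ^ ((1 : ℝ) / 4) * x ^ ((1 : ℝ) / 4) := by
      rw [← Real.mul_rpow heρ0.le hx0.le]
      exact Real.one_le_rpow (by linarith) (by norm_num)
    have h4 : x ^ ((3 : ℝ) / 4) = x ^ ((1 : ℝ) / 2) * x ^ ((1 : ℝ) / 4) := by
      rw [← Real.rpow_add hx0]; norm_num
    have h5 : 0 ≤ x ^ ((1 : ℝ) / 2) := Real.rpow_nonneg hx0.le _
    have h12 : x ^ ((1 : ℝ) / 2) ≤ (e * ρ) ^ ((1 : ℝ) / 4) * x ^ ((3 : ℝ) / 4) := by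
      rw [h4]
      calc x ^ ((1 : ℝ) / 2) = x ^ ((1 : ℝ) / 2) * 1 := by ring
        _ ≤ x ^ ((1 : ℝ) / 2) * ((e * ρ) ^ ((1 : ℝ) / 4) * x ^ ((1 : ℝ) / 4)) :=
            mul_le_mul_of_nonneg_left h1 h5
        _ = _ := by ring
    have h7 : Real.log x ≤ C₂ * x ^ ((1 : ℝ) / 2) := by
      have := h₂ x hx
      rwa [zero_add, pow_one] at this
    have h8 : 1 + Real.log ρ ≤ Real.exp (Real.log ρ) := by
      rw [add_comm]; exact Real.add_one_le_exp _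
    have h9 : F ≤ Real.exp (Real.log ρ + K * x ^ ((1 : ℝ) / 2)) := by
      refine (hfar h).trans ?_
      rw [Real.exp_add]
      exact mul_le_mul_of_nonneg_right h8 (Real.exp_pos _).le
    refine h9.trans ?_
    have h10 : e = Real.exp (Real.log e) := (Real.exp_log he).symm
    nth_rewrite 1 [h10]
    rw [← Real.exp_add]
    apply Real.exp_le_exp.mpr
    have h11 : (K + 3 * C₂) * x ^ ((1 : ℝ) / 2) ≤
        (K + 3 * C₂) * ((e * ρ) ^ ((1 : ℝ) / 4) * x ^ ((3 : ℝ) / 4)) :=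
      mul_le_mul_of_nonneg_left h12 (by linarith)
    nlinarith

/-- 289's majorant, as a Prop -/
def TMaj (k₁ k₂ k₃ : ℝ) : Prop := ∀ (C M δ r u : ℝ), 0 ≤ C → 2 ≤ M → 0 ≤ δ → 0 < r →
  ∃ h : ℂ → ℂ, DifferentiableOn ℂ h {w | 0 < w.im} ∧ ∀ w : ℂ, 0 < w.im →
    C + 1 / 2 * Real.log (1 + ‖w - u‖ / r) + 4 * Real.log (M + Real.log (1 + ‖w - u‖ / r)) +
      δ * (1 + ‖w - u‖ / r) ^ ((3 : ℝ) / 4) ≤ (h w).re ∧
    (h w).re ≤ C + k₁ + 1 / 2 * Real.log (1 + ‖w - u‖ / r) +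
      4 * Real.log (M + k₂ + Real.log (1 + ‖w - u‖ / r)) +
      k₃ * δ * (1 + ‖w - u‖ / r) ^ ((3 : ℝ) / 4)

/-- **target bound, slow case** -/
theorem target_slow {k₁ k₂ k₃ : ℝ} (hT : TMaj k₁ k₂ k₃) (hk₁ : 0 ≤ k₁) (hk₂ : 0 ≤ k₂)
    (hk₃ : 0 ≤ k₃) {M : ℝ} (hM : 2 ≤ M) {K : ℝ} (hK : 1 ≤ K) {X : ℝ} (hX : 0 ≤ X) :
    ∃ A : ℝ, 0 ≤ A ∧ ∃ C : ℝ, 1 ≤ C ∧ ∀ (e ρ r v : ℝ), 0 < e → 1 ≤ ρ → e * ρ ^ 2 ≤ 2 → 0 < r →
      ∀ (f : ℂ × ℂ → ℂ) (Bd : ℂ → ℂ → Prop) (z₁ : ℂ × ℂ), (∀ t w, Bd t w → 0 < w.im) →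
      (∀ h : ℂ → ℂ, DifferentiableOn ℂ h {w | 0 < w.im} →
        (∀ t w, Bd t w → ‖f (t, w)‖ ≤ Real.exp (h w).re) → ‖f z₁‖ ≤ Real.exp (h z₁.2).re) →
      0 < z₁.2.im → ‖z₁.2 - v‖ ≤ X * (ρ * r) →
      (∀ t w, Bd t w → e * ρ * (1 + ‖w - v‖ / (ρ * r)) ≤ 2 → ‖f (t, w)‖ ≤
        K * (e * ((ρ * (1 + ‖w - v‖ / (ρ * r))) ^ ((1 : ℝ) / 2) *
          (M + Real.log (1 + ‖w - v‖ / (ρ * r))) ^ 4))) →
      (∀ t w, Bd t w → 2 < e * ρ * (1 + ‖w - v‖ / (ρ * r)) → ‖f (t, w)‖ ≤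
        (1 + Real.log ρ) * Real.exp (K * (1 + ‖w - v‖ / (ρ * r)) ^ ((1 : ℝ) / 2))) →
      ‖f z₁‖ ≤ A * e * ρ ^ ((1 : ℝ) / 2) * Real.exp (C * (e * ρ) ^ ((1 : ℝ) / 4)) := by
  obtain ⟨C, hC, hz⟩ := zones (M := M) (by linarith) hK
  set A : ℝ := Real.exp (Real.log K + k₁ + 1 / 2 * Real.log (1 + X) +
    4 * Real.log (M + k₂ + Real.log (1 + X))) with hA
  refine ⟨A, (Real.exp_pos _).le, max 1 (k₃ * C * (1 + X) ^ ((3 : ℝ) / 4)), le_max_left _ _, ?_⟩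
  intro e ρ r v he hρ heρ hr f Bd z₁ hpos hGM hz1 hz1X hnear hfar
  have hρ0 : 0 < ρ := by linarith
  have hρr : 0 < ρ * r := by positivity
  have heρ0 : 0 < e * ρ := by positivity
  have hδ : 0 ≤ C * (e * ρ) ^ ((1 : ℝ) / 4) := by positivity
  have hlρ : 0 ≤ Real.log ρ := Real.log_nonneg hρ
  obtain ⟨h, hh1, hh2⟩ := hT (Real.log K + 1 / 2 * Real.log ρ) M (C * (e * ρ) ^ ((1 : ℝ) / 4))
    (ρ * r) v (by have := Real.log_nonneg hK; positivity) hM hδ hρr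
  -- the majorant for `f`: `h + log e`
  have key := hGM (fun w => h w + Real.log e) (hh1.add_const _) (fun t w hB => by
    have hw := hpos t w hB
    have hx1 : 1 ≤ 1 + ‖w - v‖ / (ρ * r) := by
      have : 0 ≤ ‖w - v‖ / (ρ * r) := by positivity
      linarith
    have h3 := hz e ρ _ ‖f (t, w)‖ he hρ heρ hx1 (hnear t w hB) (hfar t w hB)
    refine h3.trans ?_
    have h4 : e = Real.exp (Real.log e) := (Real.exp_log he).symm
    nth_rewrite 1 [h4]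
    rw [← Real.exp_add]
    apply Real.exp_le_exp.mpr
    have h5 := (hh2 w hw).1
    simp only [add_re, ofReal_re]
    linarith)
  refine key.trans ?_
  have h6 := (hh2 z₁.2 hz1).2
  have hζ : ‖z₁.2 - v‖ / (ρ * r) ≤ X := by
    rw [div_le_iff₀ hρr]; exact hz1X
  have hζ0 : 0 ≤ ‖z₁.2 - v‖ / (ρ * r) := by positivity
  have hl1 : Real.log (1 + ‖z₁.2 - v‖ / (ρ * r)) ≤ Real.log (1 + X) :=
    Real.log_le_log (by linarith) (by linarith)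
  have hl0 : 0 ≤ Real.log (1 + ‖z₁.2 - v‖ / (ρ * r)) := Real.log_nonneg (by linarith)
  have hl2 : Real.log (M + k₂ + Real.log (1 + ‖z₁.2 - v‖ / (ρ * r))) ≤
      Real.log (M + k₂ + Real.log (1 + X)) := Real.log_le_log (by linarith) (by linarith)
  have hl3 : (1 + ‖z₁.2 - v‖ / (ρ * r)) ^ ((3 : ℝ) / 4) ≤ (1 + X) ^ ((3 : ℝ) / 4) :=
    Real.rpow_le_rpow (by linarith) (by linarith) (by norm_num)
  have hl4 : k₃ * (C * (e * ρ) ^ ((1 : ℝ) / 4)) * (1 + ‖z₁.2 - v‖ / (ρ * r)) ^ ((3 : ℝ) / 4) ≤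
      max 1 (k₃ * C * (1 + X) ^ ((3 : ℝ) / 4)) * (e * ρ) ^ ((1 : ℝ) / 4) := by
    have i1 : k₃ * (C * (e * ρ) ^ ((1 : ℝ) / 4)) * (1 + ‖z₁.2 - v‖ / (ρ * r)) ^ ((3 : ℝ) / 4) ≤
        k₃ * (C * (e * ρ) ^ ((1 : ℝ) / 4)) * (1 + X) ^ ((3 : ℝ) / 4) :=
      mul_le_mul_of_nonneg_left hl3 (by positivity)
    have i2 : k₃ * (C * (e * ρ) ^ ((1 : ℝ) / 4)) * (1 + X) ^ ((3 : ℝ) / 4) =
        (k₃ * C * (1 + X) ^ ((3 : ℝ) / 4)) * (e * ρ) ^ ((1 : ℝ) / 4) := by ring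
    have i3 : (k₃ * C * (1 + X) ^ ((3 : ℝ) / 4)) * (e * ρ) ^ ((1 : ℝ) / 4) ≤
        max 1 (k₃ * C * (1 + X) ^ ((3 : ℝ) / 4)) * (e * ρ) ^ ((1 : ℝ) / 4) :=
      mul_le_mul_of_nonneg_right (le_max_right _ _) (by positivity)
    linarith
  have h7 : A * e * ρ ^ ((1 : ℝ) / 2) * Real.exp (max 1 (k₃ * C * (1 + X) ^ ((3 : ℝ) / 4)) *
      (e * ρ) ^ ((1 : ℝ) / 4)) = Real.exp ((Real.log K + k₁ + 1 / 2 * Real.log (1 + X) +
      4 * Real.log (M + k₂ + Real.log (1 + X))) + Real.log e + Real.log ρ * (1 / 2) +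
      max 1 (k₃ * C * (1 + X) ^ ((3 : ℝ) / 4)) * (e * ρ) ^ ((1 : ℝ) / 4)) := by
    rw [Real.exp_add, Real.exp_add, Real.exp_add _ (Real.log e), Real.exp_log he,
      Real.rpow_def_of_pos hρ0]
  rw [h7]
  apply Real.exp_le_exp.mpr
  simp only [add_re, ofReal_re]
  linarith

/-- **target bound, crude case** -/
theorem target_crude {k₁ k₂ k₃ : ℝ} (hT : TMaj k₁ k₂ k₃) (hk₁ : 0 ≤ k₁) (hk₂ : 0 ≤ k₂)
    (hk₃ : 0 ≤ k₃) {K : ℝ} (hK : 1 ≤ K) {X : ℝ} (hX : 0 ≤ X) :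
    ∃ A : ℝ, 0 ≤ A ∧ ∀ (B r v : ℝ), 0 < B → 0 < r →
      ∀ (f : ℂ × ℂ → ℂ) (Bd : ℂ → ℂ → Prop) (z₁ : ℂ × ℂ), (∀ t w, Bd t w → 0 < w.im) →
      (∀ h : ℂ → ℂ, DifferentiableOn ℂ h {w | 0 < w.im} →
        (∀ t w, Bd t w → ‖f (t, w)‖ ≤ Real.exp (h w).re) → ‖f z₁‖ ≤ Real.exp (h z₁.2).re) →
      0 < z₁.2.im → ‖z₁.2 - v‖ ≤ X * r →
      (∀ t w, Bd t w → ‖f (t, w)‖ ≤ B * Real.exp (K * (1 + ‖w - v‖ / r) ^ ((1 : ℝ) / 2))) →
      ‖f z₁‖ ≤ A * B := by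
  set A : ℝ := Real.exp (k₁ + 1 / 2 * Real.log (1 + X) +
    4 * Real.log (2 + k₂ + Real.log (1 + X)) + k₃ * K * (1 + X) ^ ((3 : ℝ) / 4)) with hA
  refine ⟨A, (Real.exp_pos _).le, ?_⟩
  intro B r v hB hr f Bd z₁ hpos hGM hz1 hz1X hfar
  obtain ⟨h, hh1, hh2⟩ := hT 0 2 K r v le_rfl le_rfl (by linarith) hr
  have key := hGM (fun w => h w + Real.log B) (hh1.add_const _) (fun t w hBd => by
    have hw := hpos t w hBd
    have hx1 : 1 ≤ 1 + ‖w - v‖ / r := by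
      have : 0 ≤ ‖w - v‖ / r := by positivity
      linarith
    refine (hfar t w hBd).trans ?_
    have h4 : B = Real.exp (Real.log B) := (Real.exp_log hB).symm
    nth_rewrite 1 [h4]
    rw [← Real.exp_add]
    apply Real.exp_le_exp.mpr
    have h5 := (hh2 w hw).1
    have h6 : (1 + ‖w - v‖ / r) ^ ((1 : ℝ) / 2) ≤ (1 + ‖w - v‖ / r) ^ ((3 : ℝ) / 4) :=
      Real.rpow_le_rpow_of_exponent_le hx1 (by norm_num)
    have h7 : 0 ≤ Real.log (1 + ‖w - v‖ / r) := Real.log_nonneg hx1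
    have h8 : 0 ≤ Real.log (2 + Real.log (1 + ‖w - v‖ / r)) := Real.log_nonneg (by linarith)
    have h9 := mul_le_mul_of_nonneg_left h6 (by linarith : (0 : ℝ) ≤ K)
    simp only [add_re, ofReal_re]
    linarith)
  refine key.trans ?_
  have h6 := (hh2 z₁.2 hz1).2
  have hζ : ‖z₁.2 - v‖ / r ≤ X := by
    rw [div_le_iff₀ hr]; exact hz1X
  have hζ0 : 0 ≤ ‖z₁.2 - v‖ / r := by positivity
  have hl1 : Real.log (1 + ‖z₁.2 - v‖ / r) ≤ Real.log (1 + X) :=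
    Real.log_le_log (by linarith) (by linarith)
  have hl0 : 0 ≤ Real.log (1 + ‖z₁.2 - v‖ / r) := Real.log_nonneg (by linarith)
  have hl2 : Real.log (2 + k₂ + Real.log (1 + ‖z₁.2 - v‖ / r)) ≤
      Real.log (2 + k₂ + Real.log (1 + X)) := Real.log_le_log (by linarith) (by linarith)
  have hl3 : (1 + ‖z₁.2 - v‖ / r) ^ ((3 : ℝ) / 4) ≤ (1 + X) ^ ((3 : ℝ) / 4) :=
    Real.rpow_le_rpow (by linarith) (by linarith) (by norm_num)
  have hl4 : k₃ * K * (1 + ‖z₁.2 - v‖ / r) ^ ((3 : ℝ) / 4) ≤ k₃ * K * (1 + X) ^ ((3 : ℝ) / 4) :=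
    mul_le_mul_of_nonneg_left hl3 (by positivity)
  have h7 : A * B = Real.exp ((k₁ + 1 / 2 * Real.log (1 + X) +
      4 * Real.log (2 + k₂ + Real.log (1 + X)) + k₃ * K * (1 + X) ^ ((3 : ℝ) / 4)) +
      Real.log B) := by
    rw [Real.exp_add _ (Real.log B), Real.exp_log hB]
  rw [h7]
  apply Real.exp_le_exp.mpr
  simp only [add_re, ofReal_re]
  linarith

end Vale.Agent.P097.H91.TD
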