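import Mathlib

/-! # P097, row T-DISC (TD): real variable bookkeeping at the lateral points -/

open Filter Metric Set Topology

namespace Vale.Agent.P097.H91.TD

/-- growth term: `exp (K ω^(-a))` with `ω = κ / (M + log x)^2`, `a ≤ 1/8`, is below `C x^(1/4)` -/
theorem exp_log_le {K M κ : ℝ} (hK : 0 ≤ K) (hM : 1 ≤ M) (hκ : 0 < κ) :
    ∃ C : ℝ, 1 ≤ C ∧ ∀ x : ℝ, 1 ≤ x →
      Real.exp (K * (κ / (M + Real.log x) ^ 2)⁻¹ ^ ((1 : ℝ) / 8)) ≤ C * x ^ ((1 : ℝ) / 4) := by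
  -- `K κ^(-1/8) (M + log x)^(1/4) ≤ C' + (1/4) log x`
  set K' : ℝ := K * κ⁻¹ ^ ((1 : ℝ) / 8) with hK'
  have hK'0 : 0 ≤ K' := by positivity
  -- choose `A ≥ 1` with `K' ≤ (1/4) A^(3/4)`
  set A : ℝ := max 1 ((4 * K') ^ ((4 : ℝ) / 3)) with hA
  have hA1 : 1 ≤ A := le_max_left _ _
  have hA0 : 0 < A := by linarith
  have hA2 : 4 * K' ≤ A ^ ((3 : ℝ) / 4) := by
    calc 4 * K' = ((4 * K') ^ ((4 : ℝ) / 3)) ^ ((3 : ℝ) / 4) := by
          rw [← Real.rpow_mul (by positivity)]; norm_num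
      _ ≤ A ^ ((3 : ℝ) / 4) := Real.rpow_le_rpow (by positivity) (le_max_right _ _) (by norm_num)
  refine ⟨Real.exp (K' * A + M), Real.one_le_exp (by positivity), fun x hx => ?_⟩
  have hx0 : 0 < x := by linarith
  have hlx : 0 ≤ Real.log x := Real.log_nonneg hx
  set y : ℝ := M + Real.log x with hy
  have hy1 : 1 ≤ y := by linarith
  have hy0 : 0 < y := by linarith
  have e1 : (κ / y ^ 2)⁻¹ ^ ((1 : ℝ) / 8) = κ⁻¹ ^ ((1 : ℝ) / 8) * y ^ ((1 : ℝ) / 4) := by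
    rw [inv_div, div_eq_mul_inv, mul_comm, Real.mul_rpow (by positivity) (by positivity)]
    congr 1
    rw [← Real.rpow_natCast, ← Real.rpow_mul hy0.le]
    norm_num
  rw [e1, ← mul_assoc]
  have h1 : K' * y ^ ((1 : ℝ) / 4) ≤ K' * A + y / 4 := by
    rcases le_or_gt y A with h | h
    · have h2 : y ^ ((1 : ℝ) / 4) ≤ A := by
        calc y ^ ((1 : ℝ) / 4) ≤ y ^ (1 : ℝ) :=
              Real.rpow_le_rpow_of_exponent_le hy1 (by norm_num)
          _ = y := Real.rpow_one y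
          _ ≤ A := h
      have := mul_le_mul_of_nonneg_left h2 hK'0
      linarith
    · have h2 : A ^ ((3 : ℝ) / 4) ≤ y ^ ((3 : ℝ) / 4) :=
        Real.rpow_le_rpow hA0.le h.le (by norm_num)
      have h3 : y ^ ((3 : ℝ) / 4) * y ^ ((1 : ℝ) / 4) = y := by
        rw [← Real.rpow_add hy0]; norm_num
      have h4 : 0 ≤ y ^ ((1 : ℝ) / 4) := Real.rpow_nonneg hy0.le _
      have h5 : 4 * K' * y ^ ((1 : ℝ) / 4) ≤ y := by
        calc 4 * K' * y ^ ((1 : ℝ) / 4) ≤ y ^ ((3 : ℝ) / 4) * y ^ ((1 : ℝ) / 4) :=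
              mul_le_mul_of_nonneg_right (hA2.trans h2) h4
          _ = y := h3
      have : 0 ≤ K' * A := by positivity
      linarith
  have h2 : Real.exp (K' * A + M) * x ^ ((1 : ℝ) / 4) =
      Real.exp (K' * A + M + 1 / 4 * Real.log x) := by
    rw [Real.rpow_def_of_pos hx0, ← Real.exp_add]
    congr 1; ring
  rw [h2]
  apply Real.exp_le_exp.mpr
  have : y / 4 = M / 4 + 1 / 4 * Real.log x := by rw [hy]; ring
  linarith

/-- real powers of the logarithm against powers -/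
theorem rpow_log_le {M ε N : ℝ} (hM : 1 ≤ M) (hε : 0 < ε) (hN : 0 ≤ N) :
    ∃ C : ℝ, 1 ≤ C ∧ ∀ x : ℝ, 1 ≤ x → (M + Real.log x) ^ N ≤ C * x ^ ε := by
  set a : ℝ := ε / (N + 1) with ha
  have ha0 : 0 < a := by positivity
  refine ⟨max 1 ((M + 1 / a) ^ N), le_max_left _ _, fun x hx => ?_⟩
  have hx0 : 0 < x := by linarith
  have h1 : Real.log x ≤ x ^ a / a := Real.log_le_rpow_div hx0.le ha0
  have h2 : 1 ≤ x ^ a := Real.one_le_rpow hx ha0.le
  have h3 : 0 ≤ Real.log x := Real.log_nonneg hx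
  have h4 : M + Real.log x ≤ (M + 1 / a) * x ^ a := by
    have : x ^ a / a = 1 / a * x ^ a := by ring
    nlinarith
  have h5 : (M + Real.log x) ^ N ≤ ((M + 1 / a) * x ^ a) ^ N :=
    Real.rpow_le_rpow (by linarith) h4 hN
  refine h5.trans ?_
  rw [Real.mul_rpow (by positivity) (by positivity)]
  have h6 : (x ^ a) ^ N ≤ x ^ ε := by
    rw [← Real.rpow_mul hx0.le]
    apply Real.rpow_le_rpow_of_exponent_le hx
    rw [ha, div_mul_eq_mul_div, div_le_iff₀ (by positivity)]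
    nlinarith
  have h7 : 0 ≤ (M + 1 / a) ^ N := by positivity
  calc (M + 1 / a) ^ N * (x ^ a) ^ N ≤ (M + 1 / a) ^ N * x ^ ε :=
        mul_le_mul_of_nonneg_left h6 h7
    _ ≤ max 1 ((M + 1 / a) ^ N) * x ^ ε :=
        mul_le_mul_of_nonneg_right (le_max_right _ _) (Real.rpow_nonneg hx0.le _)

/-- **crude term**: the absolute bound `K ω^(-N) (1 + V) + exp (K ω^(-1/8))` at relative depth
`ω = κ / (M + log x)^2` is at most `C x^(1/2)` -/
theorem crude_le {K M κ N V : ℝ} (hK : 0 ≤ K) (hM : 1 ≤ M) (hκ : 0 < κ) (hN : 0 ≤ N)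
    (hV : 0 ≤ V) : ∃ C : ℝ, 1 ≤ C ∧ ∀ x : ℝ, 1 ≤ x →
      K * (κ / (M + Real.log x) ^ 2)⁻¹ ^ N * (1 + V) +
        Real.exp (K * (κ / (M + Real.log x) ^ 2)⁻¹ ^ ((1 : ℝ) / 8)) ≤ C * x ^ ((1 : ℝ) / 2) := by
  obtain ⟨C₁, hC₁, h₁⟩ := exp_log_le hK hM hκ
  obtain ⟨C₂, hC₂, h₂⟩ := rpow_log_le (M := M) (ε := 1 / 2) (N := 2 * N) hM (by norm_num)
    (by positivity)
  refine ⟨K * κ⁻¹ ^ N * (1 + V) * C₂ + C₁, ?_, fun x hx => ?_⟩
  · have : 0 ≤ K * κ⁻¹ ^ N * (1 + V) * C₂ := by positivity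
    linarith
  have hx0 : 0 < x := by linarith
  have hy1 : 1 ≤ M + Real.log x := by linarith [Real.log_nonneg hx]
  have e1 : (κ / (M + Real.log x) ^ 2)⁻¹ ^ N = κ⁻¹ ^ N * (M + Real.log x) ^ (2 * N) := by
    rw [inv_div, div_eq_mul_inv, mul_comm, Real.mul_rpow (by positivity) (by positivity)]
    congr 1
    rw [← Real.rpow_natCast, ← Real.rpow_mul (by linarith)]
    norm_num
  have h3 := h₁ x hx
  have h4 := h₂ x hx
  have h5 : x ^ ((1 : ℝ) / 4) ≤ x ^ ((1 : ℝ) / 2) :=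
    Real.rpow_le_rpow_of_exponent_le hx (by norm_num)
  rw [e1]
  have h6 : K * (κ⁻¹ ^ N * (M + Real.log x) ^ (2 * N)) * (1 + V) ≤
      K * κ⁻¹ ^ N * (1 + V) * C₂ * x ^ ((1 : ℝ) / 2) := by
    calc K * (κ⁻¹ ^ N * (M + Real.log x) ^ (2 * N)) * (1 + V) =
        K * κ⁻¹ ^ N * (1 + V) * (M + Real.log x) ^ (2 * N) := by ring
      _ ≤ K * κ⁻¹ ^ N * (1 + V) * (C₂ * x ^ ((1 : ℝ) / 2)) :=
          mul_le_mul_of_nonneg_left h4 (by positivity)
      _ = _ := by ring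
  have h7 : C₁ * x ^ ((1 : ℝ) / 4) ≤ C₁ * x ^ ((1 : ℝ) / 2) :=
    mul_le_mul_of_nonneg_left h5 (by linarith)
  nlinarith

/-- the profile of 337 seen from the point: relative depth in terms of `x = 1 + n / r` -/
theorem prof_ge {r X n M c C : ℝ} (hr : 0 < r) (hX : 0 ≤ X) (hXn : X ≤ n) (hM : 1 ≤ M)
    (hc : 0 ≤ c) (hC : 0 < C) (hn : r + n ≤ C * (r + X)) :
    c / C / (M + Real.log (1 + n / r)) ^ 2 * (r + n) ≤
      c * ((r + X) / (M + Real.log (1 + X / r)) ^ 2) := by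
  have hn0 : 0 ≤ n := hX.trans hXn
  have hXr : 0 ≤ X / r := by positivity
  have hnr : X / r ≤ n / r := div_le_div_of_nonneg_right hXn hr.le
  have h0 : 0 ≤ Real.log (1 + X / r) := Real.log_nonneg (by linarith)
  have h1 : Real.log (1 + X / r) ≤ Real.log (1 + n / r) :=
    Real.log_le_log (by linarith) (by linarith)
  have h2 : (M + Real.log (1 + X / r)) ^ 2 ≤ (M + Real.log (1 + n / r)) ^ 2 :=
    pow_le_pow_left₀ (by linarith) (by linarith) 2
  have h3 : 0 < (M + Real.log (1 + X / r)) ^ 2 := by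
    have : 0 < M + Real.log (1 + X / r) := by linarith
    positivity
  have h4 : 0 < (M + Real.log (1 + n / r)) ^ 2 := by linarith
  have h5 : (r + n) / C ≤ r + X := by
    rw [div_le_iff₀ hC]; linarith
  calc c / C / (M + Real.log (1 + n / r)) ^ 2 * (r + n) =
      c * ((r + n) / C / (M + Real.log (1 + n / r)) ^ 2) := by
        field_simp
    _ ≤ c * ((r + X) / (M + Real.log (1 + n / r)) ^ 2) := by
        apply mul_le_mul_of_nonneg_left _ hc
        exact div_le_div_of_nonneg_right h5 h4.le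
    _ ≤ c * ((r + X) / (M + Real.log (1 + X / r)) ^ 2) := by
        apply mul_le_mul_of_nonneg_left _ hc
        exact div_le_div_of_nonneg_left (by linarith) h3 h2

end Vale.Agent.P097.H91.TD
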